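import Mathlib
import Crest.Prelude.Def_AsymptoticConvexity
import Crest.Prelude.Def_Diamond

/-!
Diamond-graph distortion lower bound from the maximum-based midpoint modulus
(module for statement S0166, written by helper30).
-/

set_option autoImplicit false

namespace Crest.Agent.S0166.Helper30

open Crest.AnalysisR

/-! ## General graph-distance lemma -/

/-- A function that changes by at most one along every edge is a lower bound for the graph
distance between reachable vertices. -/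
theorem abs_sub_le_dist {V : Type*} (G : SimpleGraph V) (g : V → ℤ)
    (hg : ∀ u v, G.Adj u v → |g u - g v| ≤ 1) {u v : V} (h : G.Reachable u v) :
    |g u - g v| ≤ (G.dist u v : ℤ) := by
  obtain ⟨p, hp⟩ := h.exists_walk_length_eq_dist
  rw [← hp]
  clear hp h
  induction p with
  | nil => simp
  | @cons a b c hab p ih =>
    have h1 := hg a b hab
    have : |g a - g c| ≤ |g a - g b| + |g b - g c| := abs_sub_le _ _ _
    simp only [SimpleGraph.Walk.length_cons, Nat.cast_add, Nat.cast_one]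
    linarith

/-! ## Structure of the diamond graphs -/

theorem diamondSrc_ne_tgt : ∀ (k : ℕ) (e : DiamondEdge k), diamondSrc k e ≠ diamondTgt k e
  | 0, _ => Bool.false_ne_true
  | k + 1, (e, i, b) => by
    cases b
    · exact (Sum.inl_ne_inr : (Sum.inl (diamondSrc k e) : DiamondVertex (k + 1)) ≠ Sum.inr (e, i))
    · exact (Sum.inr_ne_inl : (Sum.inr (e, i) : DiamondVertex (k + 1)) ≠ Sum.inl (diamondTgt k e))

theorem diamond_adj_iff (k : ℕ) (u v : DiamondVertex k) :
    (diamondGraph k).Adj u v ↔ u ≠ v ∧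
      ((∃ e : DiamondEdge k, diamondSrc k e = u ∧ diamondTgt k e = v) ∨
       (∃ e : DiamondEdge k, diamondSrc k e = v ∧ diamondTgt k e = u)) := by
  simp [diamondGraph, SimpleGraph.fromRel_adj]

theorem diamond_adj_edge (k : ℕ) (e : DiamondEdge k) :
    (diamondGraph k).Adj (diamondSrc k e) (diamondTgt k e) := by
  rw [diamond_adj_iff]
  exact ⟨diamondSrc_ne_tgt k e, Or.inl ⟨e, rfl, rfl⟩⟩

/-- first-half edge of the subdivided edge `e` through the middle vertex `(e, i)` -/
theorem src_succ_false (k : ℕ) (e : DiamondEdge k) (i : ℕ) :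
    diamondSrc (k + 1) (e, i, false) = Sum.inl (diamondSrc k e) := rfl

theorem tgt_succ_false (k : ℕ) (e : DiamondEdge k) (i : ℕ) :
    diamondTgt (k + 1) (e, i, false) = Sum.inr (e, i) := rfl

theorem src_succ_true (k : ℕ) (e : DiamondEdge k) (i : ℕ) :
    diamondSrc (k + 1) (e, i, true) = Sum.inr (e, i) := rfl

theorem tgt_succ_true (k : ℕ) (e : DiamondEdge k) (i : ℕ) :
    diamondTgt (k + 1) (e, i, true) = Sum.inl (diamondTgt k e) := rfl

theorem adj_src_mid (k : ℕ) (e : DiamondEdge k) (i : ℕ) :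
    (diamondGraph (k + 1)).Adj (Sum.inl (diamondSrc k e)) (Sum.inr (e, i)) :=
  diamond_adj_edge (k + 1) (e, i, false)

theorem adj_mid_tgt (k : ℕ) (e : DiamondEdge k) (i : ℕ) :
    (diamondGraph (k + 1)).Adj (Sum.inr (e, i)) (Sum.inl (diamondTgt k e)) :=
  diamond_adj_edge (k + 1) (e, i, true)

theorem reachable_inl_of_adj (k : ℕ) {u v : DiamondVertex k} (h : (diamondGraph k).Adj u v) :
    (diamondGraph (k + 1)).Reachable (Sum.inl u) (Sum.inl v) := by
  rw [diamond_adj_iff] at h
  rcases h with ⟨_, ⟨e, rfl, rfl⟩ | ⟨e, rfl, rfl⟩⟩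
  · exact (adj_src_mid k e 0).reachable.trans (adj_mid_tgt k e 0).reachable
  · exact ((adj_src_mid k e 0).reachable.trans (adj_mid_tgt k e 0).reachable).symm

theorem reachable_inl (k : ℕ) {u v : DiamondVertex k} (h : (diamondGraph k).Reachable u v) :
    (diamondGraph (k + 1)).Reachable (Sum.inl u) (Sum.inl v) := by
  obtain ⟨p⟩ := h
  induction p with
  | nil => exact SimpleGraph.Reachable.refl _
  | cons hab _ ih => exact (reachable_inl_of_adj k hab).trans ih

theorem diamond_connected : ∀ k : ℕ, (diamondGraph k).Connected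
  | 0 => by
    have hadj : (diamondGraph 0).Adj false true := diamond_adj_edge 0 ()
    have : Nonempty (DiamondVertex 0) := ⟨(false : Bool)⟩
    refine ⟨fun u v => ?_⟩
    have key : ∀ w : DiamondVertex 0, (diamondGraph 0).Reachable w (false : Bool) := by
      intro w
      cases (w : Bool) with
      | false => exact SimpleGraph.Reachable.refl _
      | true => exact hadj.reachable.symm
    exact (key u).trans (key v).symm
  | k + 1 => by
    have ih := diamond_connected k
    have : Nonempty (DiamondVertex (k + 1)) := ⟨Sum.inl ih.nonempty.some⟩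
    refine ⟨fun u v => ?_⟩
    have key : ∀ w : DiamondVertex (k + 1),
        (diamondGraph (k + 1)).Reachable w (Sum.inl ih.nonempty.some) := by
      intro w
      rcases w with a | ⟨e, i⟩
      · exact reachable_inl k (ih.preconnected a _)
      · exact (adj_mid_tgt k e i).reachable.trans (reachable_inl k (ih.preconnected _ _))
    exact (key u).trans (key v).symm

/-- the two "foldings" of `D (k+1)` onto `D k` -/
def proj1 (k : ℕ) : DiamondVertex (k + 1) → DiamondVertex k
  | Sum.inl a => a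
  | Sum.inr (e, _) => diamondSrc k e

def proj2 (k : ℕ) : DiamondVertex (k + 1) → DiamondVertex k
  | Sum.inl a => a
  | Sum.inr (e, _) => diamondTgt k e

theorem dist_adj_le (k : ℕ) {a b : DiamondVertex k} (h : (diamondGraph k).Adj a b)
    (u : DiamondVertex k) :
    |((diamondGraph k).dist a u : ℤ) - ((diamondGraph k).dist b u : ℤ)| ≤ 1 := by
  have hc := diamond_connected k
  have h1 : (diamondGraph k).dist a b = 1 := SimpleGraph.dist_eq_one_iff_adj.mpr h
  have h2 : (diamondGraph k).dist b a = 1 := SimpleGraph.dist_eq_one_iff_adj.mpr h.symm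
  have t1 : (diamondGraph k).dist a u ≤ (diamondGraph k).dist a b + (diamondGraph k).dist b u :=
    hc.dist_triangle
  have t2 : (diamondGraph k).dist b u ≤ (diamondGraph k).dist b a + (diamondGraph k).dist a u :=
    hc.dist_triangle
  rw [abs_le]
  constructor <;> omega

/-- distances between old vertices double under subdivision (lower bound) -/
theorem two_mul_dist_le (k : ℕ) (u v : DiamondVertex k) :
    2 * (diamondGraph k).dist u v ≤ (diamondGraph (k + 1)).dist (Sum.inl u) (Sum.inl v) := by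
  let g : DiamondVertex (k + 1) → ℤ := fun x =>
    ((diamondGraph k).dist (proj1 k x) u : ℤ) + ((diamondGraph k).dist (proj2 k x) u : ℤ)
  have hg : ∀ x y, (diamondGraph (k + 1)).Adj x y → |g x - g y| ≤ 1 := by
    intro x y hxy
    rw [diamond_adj_iff] at hxy
    have edge : ∀ (e : DiamondEdge (k + 1)),
        |g (diamondSrc (k + 1) e) - g (diamondTgt (k + 1) e)| ≤ 1 := by
      rintro ⟨e, i, b⟩
      cases b
      · -- src = inl (src e), tgt = inr (e, i)
        have := dist_adj_le k (diamond_adj_edge k e) u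
        rw [src_succ_false, tgt_succ_false]
        show |(((diamondGraph k).dist (diamondSrc k e) u : ℤ) +
            ((diamondGraph k).dist (diamondSrc k e) u : ℤ)) -
          (((diamondGraph k).dist (diamondSrc k e) u : ℤ) +
            ((diamondGraph k).dist (diamondTgt k e) u : ℤ))| ≤ 1
        rw [abs_le] at this ⊢
        constructor <;> linarith [this.1, this.2]
      · -- src = inr (e, i), tgt = inl (tgt e)
        have := dist_adj_le k (diamond_adj_edge k e) u
        rw [src_succ_true, tgt_succ_true]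
        show |(((diamondGraph k).dist (diamondSrc k e) u : ℤ) +
            ((diamondGraph k).dist (diamondTgt k e) u : ℤ)) -
          (((diamondGraph k).dist (diamondTgt k e) u : ℤ) +
            ((diamondGraph k).dist (diamondTgt k e) u : ℤ))| ≤ 1
        rw [abs_le] at this ⊢
        constructor <;> linarith [this.1, this.2]
    rcases hxy with ⟨_, ⟨e, rfl, rfl⟩ | ⟨e, rfl, rfl⟩⟩
    · exact edge e
    · rw [abs_sub_comm]; exact edge e
  have hr : (diamondGraph (k + 1)).Reachable (Sum.inl u) (Sum.inl v) :=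
    (diamond_connected (k + 1)).preconnected _ _
  have := abs_sub_le_dist (diamondGraph (k + 1)) g hg hr
  simp only [g, proj1, proj2, SimpleGraph.dist_self, Nat.cast_zero, add_zero, zero_sub,
    abs_neg] at this
  have h2 : |((diamondGraph k).dist v u : ℤ) + ((diamondGraph k).dist v u : ℤ)| =
      2 * ((diamondGraph k).dist u v : ℤ) := by
    rw [SimpleGraph.dist_comm, abs_of_nonneg (by positivity)]; ring
  rw [h2] at this
  exact_mod_cast this

/-- distinct middle vertices of the same edge are at distance at least two -/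
theorem two_le_dist_mid (k : ℕ) (e : DiamondEdge k) {i j : ℕ} (hij : i ≠ j) :
    2 ≤ (diamondGraph (k + 1)).dist (Sum.inr (e, i)) (Sum.inr (e, j)) := by
  have hne : (Sum.inr (e, i) : DiamondVertex (k + 1)) ≠ Sum.inr (e, j) := by
    intro h
    have h' : (e, i) = (e, j) := Sum.inr.inj h
    exact hij (by simpa using h')
  have hnadj : ¬ (diamondGraph (k + 1)).Adj (Sum.inr (e, i)) (Sum.inr (e, j)) := by
    intro hadj
    have h := (diamond_adj_iff (k + 1) _ _).mp hadj
    rcases h with ⟨_, ⟨⟨e', i', b⟩, h1, h2⟩ | ⟨⟨e', i', b⟩, h1, h2⟩⟩ <;> cases b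
    · rw [src_succ_false] at h1; exact Sum.inl_ne_inr h1
    · rw [tgt_succ_true] at h2; exact Sum.inl_ne_inr h2
    · rw [src_succ_false] at h1; exact Sum.inl_ne_inr h1
    · rw [tgt_succ_true] at h2; exact Sum.inl_ne_inr h2
  exact (diamond_connected (k + 1)).one_lt_dist_of_ne_of_not_adj hne hnadj

/-! ## Analytic core -/

section Analytic

variable {X : Type*} [NormedAddCommGroup X] [NormedSpace ℝ X]

/-- the maximum of the norms at the two endpoints of a symmetric segment is nondecreasing in the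
half-length -/
theorem max_norm_mono (a b : X) {t₁ t₂ : ℝ} (h0 : 0 ≤ t₁) (h : t₁ ≤ t₂) :
    max ‖a + t₁ • b‖ ‖a - t₁ • b‖ ≤ max ‖a + t₂ • b‖ ‖a - t₂ • b‖ := by
  rcases (h0.trans h).eq_or_lt with h2 | h2
  · have h1 : t₁ = 0 := le_antisymm (h2 ▸ h) h0
    rw [h1, ← h2]
  · set lam : ℝ := (1 + t₁ / t₂) / 2 with hlam
    have hd0 : 0 ≤ t₁ / t₂ := div_nonneg h0 h2.le
    have hd1 : t₁ / t₂ ≤ 1 := (div_le_one h2).mpr h
    have hl0 : 0 ≤ lam := by rw [hlam]; linarith
    have hl1 : 0 ≤ 1 - lam := by rw [hlam]; linarith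
    have key : (2 * lam - 1) * t₂ = t₁ := by
      rw [hlam]; field_simp; ring
    have e1 : a + t₁ • b = lam • (a + t₂ • b) + (1 - lam) • (a - t₂ • b) := by
      rw [← key]; module
    have e2 : a - t₁ • b = (1 - lam) • (a + t₂ • b) + lam • (a - t₂ • b) := by
      rw [← key]; module
    have hM1 : ‖a + t₂ • b‖ ≤ max ‖a + t₂ • b‖ ‖a - t₂ • b‖ := le_max_left _ _
    have hM2 : ‖a - t₂ • b‖ ≤ max ‖a + t₂ • b‖ ‖a - t₂ • b‖ := le_max_right _ _
    have b1 : ‖a + t₁ • b‖ ≤ max ‖a + t₂ • b‖ ‖a - t₂ • b‖ := by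
      rw [e1]
      calc ‖lam • (a + t₂ • b) + (1 - lam) • (a - t₂ • b)‖
          ≤ ‖lam • (a + t₂ • b)‖ + ‖(1 - lam) • (a - t₂ • b)‖ := norm_add_le _ _
        _ = lam * ‖a + t₂ • b‖ + (1 - lam) * ‖a - t₂ • b‖ := by
            rw [norm_smul, norm_smul, Real.norm_of_nonneg hl0, Real.norm_of_nonneg hl1]
        _ ≤ lam * max ‖a + t₂ • b‖ ‖a - t₂ • b‖ + (1 - lam) * max ‖a + t₂ • b‖ ‖a - t₂ • b‖ :=
            add_le_add (mul_le_mul_of_nonneg_left hM1 hl0) (mul_le_mul_of_nonneg_left hM2 hl1)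
        _ = max ‖a + t₂ • b‖ ‖a - t₂ • b‖ := by ring
    have b2 : ‖a - t₁ • b‖ ≤ max ‖a + t₂ • b‖ ‖a - t₂ • b‖ := by
      rw [e2]
      calc ‖(1 - lam) • (a + t₂ • b) + lam • (a - t₂ • b)‖
          ≤ ‖(1 - lam) • (a + t₂ • b)‖ + ‖lam • (a - t₂ • b)‖ := norm_add_le _ _
        _ = (1 - lam) * ‖a + t₂ • b‖ + lam * ‖a - t₂ • b‖ := by
            rw [norm_smul, norm_smul, Real.norm_of_nonneg hl0, Real.norm_of_nonneg hl1]
        _ ≤ (1 - lam) * max ‖a + t₂ • b‖ ‖a - t₂ • b‖ + lam * max ‖a + t₂ • b‖ ‖a - t₂ • b‖ :=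
            add_le_add (mul_le_mul_of_nonneg_left hM1 hl1) (mul_le_mul_of_nonneg_left hM2 hl0)
        _ = max ‖a + t₂ • b‖ ‖a - t₂ • b‖ := by ring
    exact max_le b1 b2

/-- pigeonhole in the finite-dimensional quotient: a bounded sequence has two distinct terms
whose difference is arbitrarily close to a given closed finite-codimensional subspace -/
theorem exists_close_pair (S : Submodule ℝ X) (hS : IsClosed (S : Set X))
    (hfd : FiniteDimensional ℝ (X ⧸ S)) (w : ℕ → X) (B : ℝ) (hB : ∀ i, ‖w i‖ ≤ B)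
    {ε : ℝ} (hε : 0 < ε) :
    ∃ i j, i ≠ j ∧ ∃ v ∈ S, ‖(w i - w j) - v‖ < ε := by
  have := hS
  have := hfd
  have : ProperSpace (X ⧸ S) := FiniteDimensional.proper ℝ (X ⧸ S)
  let q : ℕ → X ⧸ S := fun i => Submodule.Quotient.mk (w i)
  have hq : ∀ i, q i ∈ Metric.closedBall (0 : X ⧸ S) B := by
    intro i
    rw [mem_closedBall_zero_iff]
    exact (Submodule.Quotient.norm_mk_le S (w i)).trans (hB i)
  obtain ⟨a, -, φ, hφ, hlim⟩ := (isCompact_closedBall (0 : X ⧸ S) B).tendsto_subseq hq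
  have hev : ∀ᶠ n in Filter.atTop, dist (q (φ n)) a < ε / 4 :=
    (Metric.tendsto_nhds.mp hlim) (ε / 4) (by positivity)
  obtain ⟨N, hN⟩ := Filter.eventually_atTop.mp hev
  have h1 := hN N le_rfl
  have h2 := hN (N + 1) (Nat.le_succ N)
  refine ⟨φ N, φ (N + 1), (hφ (Nat.lt_succ_self N)).ne, ?_⟩
  have hd : ‖(Submodule.Quotient.mk (w (φ N) - w (φ (N + 1))) : X ⧸ S)‖ < ε / 2 := by
    have e : (Submodule.Quotient.mk (w (φ N) - w (φ (N + 1))) : X ⧸ S)
        = q (φ N) - q (φ (N + 1)) := by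
      simp [q, Submodule.Quotient.mk_sub]
    rw [e, ← dist_eq_norm]
    calc dist (q (φ N)) (q (φ (N + 1)))
        ≤ dist (q (φ N)) a + dist a (q (φ (N + 1))) := dist_triangle _ _ _
      _ < ε / 4 + ε / 4 := by rw [dist_comm a]; exact add_lt_add h1 h2
      _ = ε / 2 := by ring
  obtain ⟨m, hm, hmn⟩ := Submodule.Quotient.norm_mk_lt
    (Submodule.Quotient.mk (w (φ N) - w (φ (N + 1))) : X ⧸ S) (show (0 : ℝ) < ε / 2 by positivity)
  refine ⟨(w (φ N) - w (φ (N + 1))) - m, ?_, ?_⟩
  · have hmem := (Submodule.Quotient.eq S).mp hm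
    have := S.neg_mem hmem
    simpa using this
  · have e : w (φ N) - w (φ (N + 1)) - (w (φ N) - w (φ (N + 1)) - m) = m := by abel
    rw [e]
    linarith

/-- the maximum-based midpoint modulus hypothesis, in instance-free form -/
def MaxMid (X : Type*) [NormedAddCommGroup X] [NormedSpace ℝ X] : Prop :=
  ∀ t : ℝ, 0 < t → ∀ x : X, ‖x‖ = 1 → ∀ η : ℝ, 0 < η →
    ∃ S : Submodule ℝ X, IsClosed (S : Set X) ∧ FiniteDimensional ℝ (X ⧸ S) ∧
      ∀ y ∈ S, ‖y‖ = 1 → Real.sqrt (1 + t ^ 2 / 4) - η ≤ max ‖x + t • y‖ ‖x - t • y‖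

/-- core estimate: infinitely many `2s`-separated `A s`-approximate midpoints of `x, y` force
`‖x - y‖ ≤ 2 s √(A² - 1/4)` -/
theorem midpoint_core (hmod : MaxMid X) (x y : X) (z : ℕ → X) (s A : ℝ) (hs : 0 < s)
    (h1 : ∀ i, ‖x - z i‖ ≤ A * s) (h2 : ∀ i, ‖z i - y‖ ≤ A * s)
    (h3 : ∀ i j, i ≠ j → 2 * s ≤ ‖z i - z j‖) :
    1 ≤ A ∧ ‖x - y‖ ≤ Real.sqrt (A ^ 2 - 1 / 4) * (2 * s) := by
  have hA : 1 ≤ A := by
    have h01 := h3 0 1 (by norm_num)
    have ht : ‖z 0 - z 1‖ ≤ ‖x - z 0‖ + ‖x - z 1‖ := by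
      have e : z 0 - z 1 = (x - z 1) - (x - z 0) := by abel
      rw [e]; exact (norm_sub_le _ _).trans (by rw [add_comm])
    have := h1 0; have := h1 1
    by_contra hlt
    push Not at hlt
    nlinarith
  refine ⟨hA, ?_⟩
  set x₀ : X := (1 / 2 : ℝ) • (x - y) with hx₀
  set ρ : ℝ := ‖x₀‖ with hρ
  have hρ2 : ‖x - y‖ = 2 * ρ := by
    rw [hρ, hx₀, norm_smul, Real.norm_of_nonneg (by norm_num : (0 : ℝ) ≤ 1 / 2)]; ring
  -- main inequality
  have main : ρ ^ 2 + s ^ 2 / 4 ≤ (A * s) ^ 2 := by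
    rcases (norm_nonneg x₀).eq_or_lt with h0 | hpos
    · rw [hρ, ← h0]
      have h7 : s ≤ A * s := by nlinarith
      have h8 : s ^ 2 ≤ (A * s) ^ 2 := pow_le_pow_left₀ hs.le h7 2
      nlinarith [sq_nonneg s]
    · have hρpos : 0 < ρ := hpos
      have claim : ∀ ε : ℝ, 0 < ε → ε < s → ρ ^ 2 + (s - ε) ^ 2 / 4 ≤ (A * s + 2 * ε) ^ 2 := by
        intro ε hε hεs
        have ht₀ : 0 < (s - ε) / ρ := div_pos (by linarith) hρpos
        have hu₀ : ‖ρ⁻¹ • x₀‖ = 1 := by
          rw [norm_smul, Real.norm_of_nonneg (inv_nonneg.mpr hρpos.le)]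
          exact inv_mul_cancel₀ hρpos.ne'
        obtain ⟨S, hS, hfd, hy⟩ := hmod ((s - ε) / ρ) ht₀ (ρ⁻¹ • x₀) hu₀ (ε / ρ)
          (div_pos hε hρpos)
        have hbd : ∀ i, ‖z i‖ ≤ ‖x‖ + A * s := by
          intro i
          have e : z i = x - (x - z i) := by abel
          rw [e]
          exact (norm_sub_le _ _).trans (by linarith [h1 i])
        obtain ⟨i, j, hij, v, hv, hvn⟩ :=
          exists_close_pair S hS hfd z (‖x‖ + A * s) hbd (show (0 : ℝ) < 2 * ε by linarith)
        set w : X := (1 / 2 : ℝ) • (z i - z j) with hw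
        set w' : X := (1 / 2 : ℝ) • v with hw'
        have hw'S : w' ∈ S := S.smul_mem _ hv
        have hww' : ‖w - w'‖ < ε := by
          have e : w - w' = (1 / 2 : ℝ) • ((z i - z j) - v) := by
            rw [hw, hw']; module
          rw [e, norm_smul]
          have : ‖(1 / 2 : ℝ)‖ = 1 / 2 := by rw [Real.norm_of_nonneg] <;> norm_num
          rw [this]; linarith
        have hwn : s ≤ ‖w‖ := by
          rw [hw, norm_smul]
          have : ‖(1 / 2 : ℝ)‖ = 1 / 2 := by rw [Real.norm_of_nonneg] <;> norm_num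
          rw [this]; linarith [h3 i j hij]
        have hw'n : s - ε ≤ ‖w'‖ := by
          have e : w = w' + (w - w') := by abel
          have : ‖w‖ ≤ ‖w'‖ + ‖w - w'‖ := by
            conv_lhs => rw [e]
            exact norm_add_le _ _
          linarith
        have hw'pos : 0 < ‖w'‖ := by linarith
        have hplus : ‖x₀ + w‖ ≤ A * s := by
          have e : x₀ + w = (1 / 2 : ℝ) • ((x - z j) + (z i - y)) := by
            rw [hx₀, hw]; module
          rw [e, norm_smul]
          have : ‖(1 / 2 : ℝ)‖ = 1 / 2 := by rw [Real.norm_of_nonneg] <;> norm_num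
          rw [this]
          have := norm_add_le (x - z j) (z i - y)
          linarith [h1 j, h2 i]
        have hminus : ‖x₀ - w‖ ≤ A * s := by
          have e : x₀ - w = (1 / 2 : ℝ) • ((x - z i) + (z j - y)) := by
            rw [hx₀, hw]; module
          rw [e, norm_smul]
          have : ‖(1 / 2 : ℝ)‖ = 1 / 2 := by rw [Real.norm_of_nonneg] <;> norm_num
          rw [this]
          have := norm_add_le (x - z i) (z j - y)
          linarith [h1 i, h2 j]
        have hplus' : ‖x₀ + w'‖ ≤ A * s + ε := by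
          have e : x₀ + w' = (x₀ + w) - (w - w') := by abel
          rw [e]
          exact (norm_sub_le _ _).trans (by linarith)
        have hminus' : ‖x₀ - w'‖ ≤ A * s + ε := by
          have e : x₀ - w' = (x₀ - w) + (w - w') := by abel
          rw [e]
          exact (norm_add_le _ _).trans (by linarith)
        -- the unit direction
        set y' : X := ‖w'‖⁻¹ • w' with hy'
        have hy'S : y' ∈ S := S.smul_mem _ hw'S
        have hy'n : ‖y'‖ = 1 := by
          rw [hy', norm_smul, Real.norm_of_nonneg (inv_nonneg.mpr hw'pos.le)]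
          exact inv_mul_cancel₀ hw'pos.ne'
        have hmodel := hy y' hy'S hy'n
        have hτ : (s - ε) / ρ ≤ ‖w'‖ / ρ := div_le_div_of_nonneg_right hw'n hρpos.le
        have hmono := max_norm_mono (ρ⁻¹ • x₀) y' ht₀.le hτ
        have hy'' : (‖w'‖ / ρ) • y' = ρ⁻¹ • w' := by
          rw [hy', smul_smul]
          congr 1
          field_simp
        have e1 : ρ⁻¹ • x₀ + (‖w'‖ / ρ) • y' = ρ⁻¹ • (x₀ + w') := by
          rw [hy'', smul_add]
        have e2 : ρ⁻¹ • x₀ - (‖w'‖ / ρ) • y' = ρ⁻¹ • (x₀ - w') := by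
          rw [hy'', smul_sub]
        have n1 : ‖ρ⁻¹ • x₀ + (‖w'‖ / ρ) • y'‖ ≤ (A * s + ε) / ρ := by
          rw [e1, norm_smul, Real.norm_of_nonneg (inv_nonneg.mpr hρpos.le), div_eq_inv_mul]
          exact mul_le_mul_of_nonneg_left hplus' (inv_nonneg.mpr hρpos.le)
        have n2 : ‖ρ⁻¹ • x₀ - (‖w'‖ / ρ) • y'‖ ≤ (A * s + ε) / ρ := by
          rw [e2, norm_smul, Real.norm_of_nonneg (inv_nonneg.mpr hρpos.le), div_eq_inv_mul]
          exact mul_le_mul_of_nonneg_left hminus' (inv_nonneg.mpr hρpos.le)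
        have hsq : Real.sqrt (1 + ((s - ε) / ρ) ^ 2 / 4) ≤ (A * s + 2 * ε) / ρ := by
          have := hmodel.trans (hmono.trans (max_le n1 n2))
          have e : (A * s + 2 * ε) / ρ = (A * s + ε) / ρ + ε / ρ := by ring
          rw [e]; linarith
        have hnn : 0 ≤ (A * s + 2 * ε) / ρ := (Real.sqrt_nonneg _).trans hsq
        have h4 : 1 + ((s - ε) / ρ) ^ 2 / 4 ≤ ((A * s + 2 * ε) / ρ) ^ 2 :=
          (Real.sqrt_le_left hnn).mp hsq
        have h5 : ρ ^ 2 * (1 + ((s - ε) / ρ) ^ 2 / 4) ≤ ρ ^ 2 * ((A * s + 2 * ε) / ρ) ^ 2 :=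
          mul_le_mul_of_nonneg_left h4 (sq_nonneg ρ)
        have e3 : ρ ^ 2 * (1 + ((s - ε) / ρ) ^ 2 / 4) = ρ ^ 2 + (s - ε) ^ 2 / 4 := by
          field_simp
        have e4 : ρ ^ 2 * ((A * s + 2 * ε) / ρ) ^ 2 = (A * s + 2 * ε) ^ 2 := by
          field_simp
        rw [e3, e4] at h5
        exact h5
      have hF : Filter.Tendsto (fun ε : ℝ => ρ ^ 2 + (s - ε) ^ 2 / 4) (nhdsWithin 0 (Set.Ioi 0))
          (nhds (ρ ^ 2 + (s - 0) ^ 2 / 4)) :=
        ((by fun_prop : Continuous fun ε : ℝ => ρ ^ 2 + (s - ε) ^ 2 / 4).tendsto 0).mono_left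
          nhdsWithin_le_nhds
      have hG : Filter.Tendsto (fun ε : ℝ => (A * s + 2 * ε) ^ 2) (nhdsWithin 0 (Set.Ioi 0))
          (nhds ((A * s + 2 * 0) ^ 2)) :=
        ((by fun_prop : Continuous fun ε : ℝ => (A * s + 2 * ε) ^ 2).tendsto 0).mono_left
          nhdsWithin_le_nhds
      have hev : ∀ᶠ ε in nhdsWithin (0 : ℝ) (Set.Ioi 0),
          ρ ^ 2 + (s - ε) ^ 2 / 4 ≤ (A * s + 2 * ε) ^ 2 := by
        filter_upwards [Ioo_mem_nhdsGT hs] with ε hε
        exact claim ε hε.1 hε.2
      have := le_of_tendsto_of_tendsto hF hG hev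
      simpa using this
  have hnn : 0 ≤ A ^ 2 - 1 / 4 := by nlinarith
  rw [hρ2]
  have h6 : (2 * ρ) ^ 2 ≤ (Real.sqrt (A ^ 2 - 1 / 4) * (2 * s)) ^ 2 := by
    rw [mul_pow (Real.sqrt _), Real.sq_sqrt hnn]; nlinarith
  exact (sq_le_sq₀ (by positivity) (by positivity)).mp h6

/-- main induction: a non-contracting map of `D k` at scale `s` whose edges are stretched by at
most `A s` forces `A² ≥ 1 + k/4` -/
theorem key_induction (hmod : MaxMid X) :
    ∀ (k : ℕ) (f : DiamondVertex k → X) (s A : ℝ), 0 < s →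
      (∀ u v, s * (diamondDist k u v : ℝ) ≤ ‖f u - f v‖) →
      (∀ e : DiamondEdge k, ‖f (diamondSrc k e) - f (diamondTgt k e)‖ ≤ A * s) →
      1 + (k : ℝ) / 4 ≤ A ^ 2
  | 0, f, s, A, hs, hlow, hup => by
    have h1 := hlow (diamondSrc 0 ()) (diamondTgt 0 ())
    have h2 := hup ()
    have hd : diamondDist 0 (diamondSrc 0 ()) (diamondTgt 0 ()) = 1 :=
      SimpleGraph.dist_eq_one_iff_adj.mpr (diamond_adj_edge 0 ())
    rw [hd, Nat.cast_one, mul_one] at h1
    have hA : 1 ≤ A := by
      by_contra hlt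
      push Not at hlt
      nlinarith
    simp only [Nat.cast_zero, zero_div, add_zero]
    nlinarith
  | k + 1, f, s, A, hs, hlow, hup => by
    have hedge : ∀ e : DiamondEdge k,
        ‖f (Sum.inl (diamondSrc k e)) - f (Sum.inl (diamondTgt k e))‖
          ≤ Real.sqrt (A ^ 2 - 1 / 4) * (2 * s) := by
      intro e
      refine (midpoint_core hmod _ _ (fun i => f (Sum.inr (e, i))) s A hs ?_ ?_ ?_).2
      · intro i; exact hup (e, i, false)
      · intro i; exact hup (e, i, true)
      · intro i j hij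
        have h := hlow (Sum.inr (e, i)) (Sum.inr (e, j))
        have h2 : (2 : ℝ) ≤ (diamondDist (k + 1) (Sum.inr (e, i)) (Sum.inr (e, j)) : ℝ) := by
          exact_mod_cast two_le_dist_mid k e hij
        nlinarith
    have hlow' : ∀ u v : DiamondVertex k,
        (2 * s) * (diamondDist k u v : ℝ) ≤ ‖f (Sum.inl u) - f (Sum.inl v)‖ := by
      intro u v
      have h := hlow (Sum.inl u) (Sum.inl v)
      have h2 : (2 : ℝ) * (diamondDist k u v : ℝ)
          ≤ (diamondDist (k + 1) (Sum.inl u) (Sum.inl v) : ℝ) := by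
        exact_mod_cast two_mul_dist_le k u v
      nlinarith
    have IH := key_induction hmod k (fun u => f (Sum.inl u)) (2 * s)
      (Real.sqrt (A ^ 2 - 1 / 4)) (by linarith) hlow' hedge
    rcases le_or_gt 0 (A ^ 2 - 1 / 4) with hnn | hneg
    · rw [Real.sq_sqrt hnn] at IH
      push_cast
      linarith
    · rw [Real.sqrt_eq_zero_of_nonpos hneg.le] at IH
      have : (0 : ℝ) ≤ (k : ℝ) := Nat.cast_nonneg k
      nlinarith

end Analytic

/-! ## The statement for `RealBanach` records -/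

theorem maxMid_of (E : RealBanach)
    (h : ∀ t : ℝ, 0 < t → E.MaxMidpointModulusGE E.norm t (Real.sqrt (1 + t ^ 2 / 4) - 1)) :
    @MaxMid E.X E.normed E.space := by
  letI := E.normed
  letI := E.space
  intro t ht x hx η hη
  obtain ⟨F, ⟨S, hSF, hcl, hfd⟩, hF⟩ := h t ht x hx η hη
  refine ⟨S, hSF ▸ hcl, hfd, ?_⟩
  intro y hy hy1
  have hyF : y ∈ F := hSF ▸ hy
  have := hF y hyF hy1
  have e : ∀ v : E.X, E.norm v = ‖v‖ := fun _ => rfl
  rw [e, e] at this
  linarith

/-- **Diamond distortion bound.** If the given norm of `E` has maximum-based midpoint modulus at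
least `√(1 + t²/4) - 1` at every `t > 0`, then every map of the depth-`k` countably branching
diamond graph into `E` of distortion at most `D` satisfies `1 + k/4 ≤ D²`. -/
theorem diamond_distortion (E : RealBanach)
    (h : ∀ t : ℝ, 0 < t → E.MaxMidpointModulusGE E.norm t (Real.sqrt (1 + t ^ 2 / 4) - 1))
    (k : ℕ) (f : DiamondVertex k → E.X) (D : ℝ) (hD : E.HasDistortionLE k f D) :
    1 + (k : ℝ) / 4 ≤ D ^ 2 := by
  letI := E.normed
  letI := E.space
  obtain ⟨s, hs, hf⟩ := hD
  refine key_induction (maxMid_of E h) k f s D hs (fun u v => (hf u v).1) (fun e => ?_)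
  have h1 := (hf (diamondSrc k e) (diamondTgt k e)).2
  have hd : diamondDist k (diamondSrc k e) (diamondTgt k e) = 1 :=
    SimpleGraph.dist_eq_one_iff_adj.mpr (diamond_adj_edge k e)
  rw [hd] at h1
  simpa using h1

end Crest.Agent.S0166.Helper30
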