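import Mathlib
import Crest.Prelude.Def_AsymptoticConvexity

/-!
Shared core for S0166–S0169 (row 125): generic (plain normed space) versions of the notions of
`Def_AsymptoticConvexity`, a toolkit for closed finite-codimensional subspaces, and the
criterion "bounded asymptotic trees of every height ⇒ no equivalent AUC norm".
-/

set_option autoImplicit false

namespace Crest.Agent.S0166.Helper32

open Crest.AnalysisR Filter Topology

section Generic

variable {X : Type*} [NormedAddCommGroup X] [NormedSpace ℝ X]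

/-- Generic version of `RealBanach.IsCof`. -/
def IsCofG (F : Set X) : Prop :=
  ∃ S : Submodule ℝ X, (S : Set X) = F ∧ IsClosed F ∧ FiniteDimensional ℝ (X ⧸ S)

/-- Generic version of `RealBanach.IsEquivNorm`. -/
def IsEquivNormG (N : X → ℝ) : Prop :=
  (∀ x y : X, N (x + y) ≤ N x + N y) ∧ (∀ (a : ℝ) (x : X), N (a • x) = abs a * N x) ∧
    ∃ a b : ℝ, 0 < a ∧ ∀ x : X, a * ‖x‖ ≤ N x ∧ N x ≤ b * ‖x‖

/-- Generic version of `RealBanach.IsAUC`. -/
def IsAUCG (N : X → ℝ) : Prop :=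
  ∀ t : ℝ, 0 < t → ∃ c : ℝ, 0 < c ∧ ∀ x : X, N x = 1 → ∃ F : Set X, IsCofG F ∧
    ∀ y ∈ F, N y = 1 → c ≤ N (x + t • y) - 1

/-! ### Closed finite-codimensional subspaces -/

theorem IsCofG.zero_mem {F : Set X} (hF : IsCofG F) : (0 : X) ∈ F := by
  obtain ⟨S, rfl, -, -⟩ := hF
  exact S.zero_mem

theorem IsCofG.smul_mem {F : Set X} (hF : IsCofG F) (a : ℝ) {x : X} (hx : x ∈ F) : a • x ∈ F := by
  obtain ⟨S, rfl, -, -⟩ := hF
  exact S.smul_mem a hx

theorem IsCofG.add_mem {F : Set X} (hF : IsCofG F) {x y : X} (hx : x ∈ F) (hy : y ∈ F) :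
    x + y ∈ F := by
  obtain ⟨S, rfl, -, -⟩ := hF
  exact S.add_mem hx hy

theorem IsCofG.neg_mem {F : Set X} (hF : IsCofG F) {x : X} (hx : x ∈ F) : -x ∈ F := by
  obtain ⟨S, rfl, -, -⟩ := hF
  exact S.neg_mem hx

theorem IsCofG.sub_mem {F : Set X} (hF : IsCofG F) {x y : X} (hx : x ∈ F) (hy : y ∈ F) :
    x - y ∈ F := by
  obtain ⟨S, rfl, -, -⟩ := hF
  exact S.sub_mem hx hy

theorem isCofG_univ : IsCofG (Set.univ : Set X) := by
  refine ⟨⊤, by simp, isClosed_univ, ?_⟩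
  have : Subsingleton (X ⧸ (⊤ : Submodule ℝ X)) := Submodule.Quotient.subsingleton_iff.mpr rfl
  infer_instance

/-- The common kernel of finitely many continuous linear functionals is closed of finite
codimension. -/
theorem isCofG_iInter_ker {ι : Type*} [Finite ι] (φ : ι → X →L[ℝ] ℝ) :
    IsCofG {x : X | ∀ i, φ i x = 0} := by
  classical
  cases nonempty_fintype ι
  let Φ : X →ₗ[ℝ] (ι → ℝ) := LinearMap.pi fun i => (φ i : X →ₗ[ℝ] ℝ)
  refine ⟨LinearMap.ker Φ, ?_, ?_, ?_⟩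
  · ext x
    simp [Φ, funext_iff]
  · have : {x : X | ∀ i, φ i x = 0} = ⋂ i, {x | φ i x = 0} := by
      ext; simp
    rw [this]
    exact isClosed_iInter fun i => isClosed_eq (φ i).continuous continuous_const
  · exact Φ.quotKerEquivRange.symm.finiteDimensional

/-- The kernel of one continuous linear functional. -/
theorem isCofG_ker (φ : X →L[ℝ] ℝ) : IsCofG {x : X | φ x = 0} := by
  have := isCofG_iInter_ker (fun _ : Unit => φ)
  simpa using this

theorem IsCofG.inter {F G : Set X} (hF : IsCofG F) (hG : IsCofG G) : IsCofG (F ∩ G) := by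
  obtain ⟨S, rfl, hSc, hSf⟩ := hF
  obtain ⟨T, rfl, hTc, hTf⟩ := hG
  refine ⟨S ⊓ T, by simp, hSc.inter hTc, ?_⟩
  let Ψ : X →ₗ[ℝ] (X ⧸ S) × (X ⧸ T) := (S.mkQ).prod (T.mkQ)
  have hker : LinearMap.ker Ψ = S ⊓ T := by
    ext x
    simp [Ψ]
  have h1 : FiniteDimensional ℝ (X ⧸ LinearMap.ker Ψ) :=
    Ψ.quotKerEquivRange.symm.finiteDimensional
  exact (Submodule.quotEquivOfEq _ _ hker).finiteDimensional

/-- A finite-dimensional space: the zero subspace is closed of finite codimension. -/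
theorem isCofG_zero_of_finiteDimensional [FiniteDimensional ℝ X] : IsCofG ({0} : Set X) := by
  refine ⟨⊥, by simp, isClosed_singleton, ?_⟩
  exact (Submodule.quotEquivOfEqBot (⊥ : Submodule ℝ X) rfl).symm.finiteDimensional

/-- Core compactness lemma: the images in the (finite-dimensional) quotient of a bounded sequence
have a convergent subsequence. -/
theorem exists_subseq_quot_tendsto (S : Submodule ℝ X) [hS : IsClosed (S : Set X)]
    [FiniteDimensional ℝ (X ⧸ S)] (z : ℕ → X) {R : ℝ} (hz : ∀ k, ‖z k‖ ≤ R) :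
    ∃ (a : X ⧸ S) (φ : ℕ → ℕ), StrictMono φ ∧
      Tendsto (fun n => (Submodule.Quotient.mk (z (φ n)) : X ⧸ S)) atTop (𝓝 a) := by
  have : ProperSpace (X ⧸ S) := FiniteDimensional.proper_real _
  have hb : Bornology.IsBounded (Metric.closedBall (0 : X ⧸ S) R) := Metric.isBounded_closedBall
  have hx : ∀ n, (Submodule.Quotient.mk (z n) : X ⧸ S) ∈ Metric.closedBall (0 : X ⧸ S) R := by
    intro n
    rw [mem_closedBall_zero_iff]
    exact (Submodule.Quotient.norm_mk_le S (z n)).trans (hz n)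
  obtain ⟨a, -, φ, hφ, hlim⟩ := tendsto_subseq_of_bounded hb hx
  exact ⟨a, φ, hφ, hlim⟩

/-- A bounded sequence has two terms whose difference is arbitrarily close to a given closed
finite-codimensional subspace. -/
theorem IsCofG.exists_pair_close {F : Set X} (hF : IsCofG F) (z : ℕ → X) {R : ℝ}
    (hz : ∀ k, ‖z k‖ ≤ R) {ε : ℝ} (hε : 0 < ε) :
    ∃ i j : ℕ, i < j ∧ ∃ w ∈ F, ‖z i - z j - w‖ < ε := by
  obtain ⟨S, rfl, hSc, hSf⟩ := hF
  have : IsClosed (S : Set X) := hSc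
  obtain ⟨a, φ, hφ, hlim⟩ := exists_subseq_quot_tendsto S z hz
  rw [Metric.tendsto_atTop] at hlim
  obtain ⟨n₀, hn₀⟩ := hlim (ε / 2) (by positivity)
  have h1 := hn₀ n₀ le_rfl
  have h2 := hn₀ (n₀ + 1) (Nat.le_succ _)
  have h3 : ‖(Submodule.Quotient.mk (z (φ n₀) - z (φ (n₀ + 1))) : X ⧸ S)‖ < ε := by
    rw [Submodule.Quotient.mk_sub, ← dist_eq_norm]
    calc dist (Submodule.Quotient.mk (z (φ n₀)) : X ⧸ S) (Submodule.Quotient.mk (z (φ (n₀ + 1))))
        ≤ dist (Submodule.Quotient.mk (z (φ n₀)) : X ⧸ S) a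
          + dist (Submodule.Quotient.mk (z (φ (n₀ + 1))) : X ⧸ S) a := dist_triangle_right _ _ _
      _ < ε / 2 + ε / 2 := add_lt_add h1 h2
      _ = ε := by ring
  obtain ⟨m, hm, hmn⟩ := Submodule.Quotient.norm_mk_lt
    (Submodule.Quotient.mk (z (φ n₀) - z (φ (n₀ + 1))) : X ⧸ S) (sub_pos.mpr h3)
  refine ⟨φ n₀, φ (n₀ + 1), hφ (Nat.lt_succ_self _), z (φ n₀) - z (φ (n₀ + 1)) - m, ?_, ?_⟩
  · have := (Submodule.Quotient.eq S).mp hm
    have h4 : z (φ n₀) - z (φ (n₀ + 1)) - m = -(m - (z (φ n₀) - z (φ (n₀ + 1)))) := by abel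
    show z (φ n₀) - z (φ (n₀ + 1)) - m ∈ S
    rw [h4]
    exact S.neg_mem this
  · have h4 : z (φ n₀) - z (φ (n₀ + 1)) - (z (φ n₀) - z (φ (n₀ + 1)) - m) = m := by abel
    rw [h4]
    linarith

/-- If all subsequences of a bounded sequence have Cesàro means tending to `0` in norm, then some
term is arbitrarily close to a given closed finite-codimensional subspace. -/
theorem IsCofG.exists_close_of_cesaro {F : Set X} (hF : IsCofG F) (z : ℕ → X) {R : ℝ}
    (hz : ∀ k, ‖z k‖ ≤ R)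
    (hces : ∀ φ : ℕ → ℕ, StrictMono φ →
      Tendsto (fun K : ℕ => ‖((K : ℝ)⁻¹) • ∑ j ∈ Finset.range K, z (φ j)‖) atTop (𝓝 0))
    {ε : ℝ} (hε : 0 < ε) : ∃ k : ℕ, ∃ w ∈ F, ‖z k - w‖ < ε := by
  obtain ⟨S, rfl, hSc, hSf⟩ := hF
  have : IsClosed (S : Set X) := hSc
  obtain ⟨a, φ, hφ, hlim⟩ := exists_subseq_quot_tendsto S z hz
  have hc1 := hlim.cesaro_smul
  have hc2 : Tendsto (fun K : ℕ => ((K : ℝ)⁻¹) • ∑ j ∈ Finset.range K,
      (Submodule.Quotient.mk (z (φ j)) : X ⧸ S)) atTop (𝓝 0) := by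
    rw [tendsto_zero_iff_norm_tendsto_zero]
    refine squeeze_zero (fun _ => norm_nonneg _) (fun K => ?_) (hces φ hφ)
    have : ((K : ℝ)⁻¹) • ∑ j ∈ Finset.range K, (Submodule.Quotient.mk (z (φ j)) : X ⧸ S)
        = Submodule.Quotient.mk (((K : ℝ)⁻¹) • ∑ j ∈ Finset.range K, z (φ j)) := by
      have := map_sum S.mkQ (fun j => z (φ j)) (Finset.range K)
      simp only [Submodule.mkQ_apply] at this
      rw [Submodule.Quotient.mk_smul, this]
    rw [this]
    exact Submodule.Quotient.norm_mk_le S _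
  have ha : a = 0 := tendsto_nhds_unique hc1 hc2
  subst ha
  rw [tendsto_zero_iff_norm_tendsto_zero, Metric.tendsto_atTop] at hlim
  obtain ⟨n₀, hn₀⟩ := hlim ε hε
  have h1 := hn₀ n₀ le_rfl
  simp only [Real.dist_eq, sub_zero, abs_norm] at h1
  obtain ⟨m, hm, hmn⟩ := Submodule.Quotient.norm_mk_lt
    (Submodule.Quotient.mk (z (φ n₀)) : X ⧸ S) (sub_pos.mpr h1)
  refine ⟨φ n₀, z (φ n₀) - m, ?_, ?_⟩
  · have := (Submodule.Quotient.eq S).mp hm
    have h4 : z (φ n₀) - m = -(m - z (φ n₀)) := by abel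
    show z (φ n₀) - m ∈ S
    rw [h4]
    exact S.neg_mem this
  · have h4 : z (φ n₀) - (z (φ n₀) - m) = m := by abel
    rw [h4]
    linarith

/-- Convenient sufficient condition: an `ℓ₂`-type upper estimate on all finite sums. -/
theorem IsCofG.exists_close_of_sqrt_bound {F : Set X} (hF : IsCofG F) (z : ℕ → X) {C : ℝ}
    (hz : ∀ s : Finset ℕ, ‖∑ j ∈ s, z j‖ ≤ C * Real.sqrt s.card)
    {ε : ℝ} (hε : 0 < ε) : ∃ k : ℕ, ∃ w ∈ F, ‖z k - w‖ < ε := by
  have hC : 0 ≤ C := by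
    have := hz {0}
    simp at this
    exact (norm_nonneg _).trans this
  refine hF.exists_close_of_cesaro z (R := C) (fun k => ?_) (fun φ hφ => ?_) hε
  · have := hz {k}
    simpa using this
  · have hbound : ∀ K : ℕ, ‖((K : ℝ)⁻¹) • ∑ j ∈ Finset.range K, z (φ j)‖
        ≤ C * ((K : ℝ)⁻¹ * Real.sqrt K) := by
      intro K
      have h1 : ∑ j ∈ Finset.range K, z (φ j) = ∑ i ∈ (Finset.range K).image φ, z i := by
        rw [Finset.sum_image]
        intro x _ y _ hxy
        exact hφ.injective hxy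
      have h2 : ((Finset.range K).image φ).card = K := by
        rw [Finset.card_image_of_injective _ hφ.injective, Finset.card_range]
      rw [norm_smul, h1, Real.norm_eq_abs, abs_of_nonneg (by positivity)]
      calc (K : ℝ)⁻¹ * ‖∑ i ∈ (Finset.range K).image φ, z i‖
          ≤ (K : ℝ)⁻¹ * (C * Real.sqrt ((Finset.range K).image φ).card) :=
            mul_le_mul_of_nonneg_left (hz _) (by positivity)
        _ = C * ((K : ℝ)⁻¹ * Real.sqrt K) := by rw [h2]; ring
    have hlim : Tendsto (fun K : ℕ => C * ((K : ℝ)⁻¹ * Real.sqrt K)) atTop (𝓝 0) := by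
      have h3 : Tendsto (fun K : ℕ => (Real.sqrt K)⁻¹) atTop (𝓝 0) := by
        have : Tendsto (fun K : ℕ => Real.sqrt (K : ℝ)) atTop atTop :=
          Real.tendsto_sqrt_atTop.comp tendsto_natCast_atTop_atTop
        exact tendsto_inv_atTop_zero.comp this
      have h4 : ∀ K : ℕ, C * ((K : ℝ)⁻¹ * Real.sqrt K) = C * (Real.sqrt K)⁻¹ := by
        intro K
        rcases Nat.eq_zero_or_pos K with rfl | hK
        · simp
        · have hK' : (0 : ℝ) < K := by exact_mod_cast hK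
          have hs : 0 < Real.sqrt K := Real.sqrt_pos.mpr hK'
          congr 1
          rw [inv_mul_eq_div, Real.sqrt_div_self', one_div]
      simp_rw [h4]
      simpa using h3.const_mul C
    exact squeeze_zero (fun _ => norm_nonneg _) hbound hlim

/-! ### Equivalent norms -/

theorem IsEquivNormG.neg {N : X → ℝ} (hN : IsEquivNormG N) (x : X) : N (-x) = N x := by
  have := hN.2.1 (-1) x
  simpa using this

theorem IsEquivNormG.nonneg {N : X → ℝ} (hN : IsEquivNormG N) (x : X) : 0 ≤ N x := by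
  obtain ⟨-, -, a, b, ha, hab⟩ := hN
  exact (mul_nonneg ha.le (norm_nonneg x)).trans (hab x).1

theorem IsEquivNormG.sub_le {N : X → ℝ} (hN : IsEquivNormG N) (x y : X) :
    N x - N y ≤ N (x + y) := by
  have h1 := hN.1 (x + y) (-y)
  rw [hN.neg] at h1
  have h2 : x + y + -y = x := by abel
  rw [h2] at h1
  linarith

/-- Convexity along a ray: if `N u = 1` and `0 < t ≤ s` then
`N (u + s • v) - 1 ≥ (s / t) * (N (u + t • v) - 1)`. -/
theorem IsEquivNormG.ray_convex {N : X → ℝ} (hN : IsEquivNormG N) {u v : X} (hu : N u = 1)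
    {t s : ℝ} (ht : 0 < t) (hts : t ≤ s) :
    (s / t) * (N (u + t • v) - 1) ≤ N (u + s • v) - 1 := by
  have hs : 0 < s := lt_of_lt_of_le ht hts
  have hdecomp : u + t • v = (1 - t / s) • u + (t / s) • (u + s • v) := by
    rw [smul_add, smul_smul, div_mul_cancel₀ _ hs.ne', ← add_assoc, ← add_smul]
    congr 1
    rw [sub_add_cancel, one_smul]
  have h1 : N (u + t • v) ≤ (1 - t / s) * N u + (t / s) * N (u + s • v) := by
    rw [hdecomp]
    refine (hN.1 _ _).trans ?_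
    rw [hN.2.1, hN.2.1, abs_of_nonneg (div_nonneg ht.le hs.le),
      abs_of_nonneg (sub_nonneg.mpr ((div_le_one hs).mpr hts))]
  rw [hu] at h1
  have h2 : N (u + t • v) - 1 ≤ (t / s) * (N (u + s • v) - 1) := by linarith
  have h3 : (s / t) * (N (u + t • v) - 1) ≤ (s / t) * ((t / s) * (N (u + s • v) - 1)) :=
    mul_le_mul_of_nonneg_left h2 (div_nonneg hs.le ht.le)
  have h4 : (s / t) * ((t / s) * (N (u + s • v) - 1)) = N (u + s • v) - 1 := by
    field_simp
  linarith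

/-! ### The tree criterion -/

/-- `TreeNode R δ k x`: `x` is the root of a height-`k` asymptotic tree inside the `R`-ball: every
node has, for every closed finite-codimensional `F` and every `ε > 0`, a child `x'` with
`‖x' - x‖ ≥ δ` and `x' - x` within `ε` of `F`. -/
def TreeNode (R δ : ℝ) : ℕ → X → Prop
  | 0, x => ‖x‖ ≤ R
  | k + 1, x => ‖x‖ ≤ R ∧ ∀ F : Set X, IsCofG F → ∀ ε : ℝ, 0 < ε →
      ∃ x' w : X, TreeNode R δ k x' ∧ w ∈ F ∧ ‖x' - x - w‖ < ε ∧ δ ≤ ‖x' - x‖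

theorem TreeNode.norm_le {R δ : ℝ} : ∀ {k : ℕ} {x : X}, TreeNode R δ k x → ‖x‖ ≤ R
  | 0, _, h => h
  | _ + 1, _, h => h.1

/-- Growth of an AUC norm along asymptotic trees. -/
theorem TreeNode.exists_growth {R δ : ℝ} (hδ : 0 < δ) {N : X → ℝ} (hN : IsEquivNormG N)
    {a b : ℝ} (ha : 0 < a) (hb : 0 < b) (hab : ∀ x : X, a * ‖x‖ ≤ N x ∧ N x ≤ b * ‖x‖)
    (hR : 0 < R) {c : ℝ} (hc : 0 < c)
    (hauc : ∀ x : X, N x = 1 → ∃ F : Set X, IsCofG F ∧
      ∀ y ∈ F, N y = 1 → c ≤ N (x + (a * δ / (2 * b * R)) • y) - 1) :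
    ∀ (k : ℕ) (x : X), TreeNode R δ k x → 0 < N x →
      ∃ z : X, ‖z‖ ≤ R ∧ (1 + c / 2) ^ k * N x ≤ N z := by
  intro k
  induction k with
  | zero =>
    intro x hx _
    exact ⟨x, hx, by simp⟩
  | succ k ih =>
    intro x hx hNx
    obtain ⟨hxR, hstep⟩ := hx
    set t : ℝ := a * δ / (2 * b * R) with ht_def
    have ht : 0 < t := by positivity
    set u : X := (N x)⁻¹ • x with hu_def
    have hNu : N u = 1 := by
      rw [hu_def, hN.2.1, abs_of_pos (inv_pos.mpr hNx), inv_mul_cancel₀ hNx.ne']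
    obtain ⟨F, hF, hFc⟩ := hauc u hNu
    set ε : ℝ := min (δ / 2) (c * N x / (2 * b)) with hε_def
    have hε : 0 < ε := lt_min (by positivity) (by positivity)
    obtain ⟨x', w, hx', hwF, hclose, hfar⟩ := hstep F hF ε hε
    have hw_norm : δ / 2 < ‖w‖ := by
      have h1 : ‖x' - x‖ ≤ ‖x' - x - w‖ + ‖w‖ := by
        have : x' - x = (x' - x - w) + w := by abel
        calc ‖x' - x‖ = ‖(x' - x - w) + w‖ := by rw [← this]
          _ ≤ _ := norm_add_le _ _
      have h2 : ε ≤ δ / 2 := min_le_left _ _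
      linarith
    have hNw : a * δ / 2 < N w := by
      have h1 := (hab w).1
      have h2 : a * (δ / 2) < a * ‖w‖ := mul_lt_mul_of_pos_left hw_norm ha
      linarith
    have hNw_pos : 0 < N w := lt_trans (by positivity) hNw
    set v : X := (N w)⁻¹ • w with hv_def
    have hvF : v ∈ F := hF.smul_mem _ hwF
    have hNv : N v = 1 := by
      rw [hv_def, hN.2.1, abs_of_pos (inv_pos.mpr hNw_pos), inv_mul_cancel₀ hNw_pos.ne']
    have hcv := hFc v hvF hNv
    set s : ℝ := N w / N x with hs_def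
    have hNx_le : N x ≤ b * R := (hab x).2.trans (mul_le_mul_of_nonneg_left hxR hb.le)
    have hts : t ≤ s := by
      rw [ht_def, hs_def, div_le_div_iff₀ (by positivity) hNx]
      have h1 : a * δ * N x ≤ a * δ * (b * R) := mul_le_mul_of_nonneg_left hNx_le (by positivity)
      have h2 : a * δ * (b * R) ≤ N w * (2 * b * R) := by
        have h3 : a * δ / 2 * (2 * b * R) ≤ N w * (2 * b * R) :=
          mul_le_mul_of_nonneg_right hNw.le (by positivity)
        linarith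
      linarith
    have hconv := hN.ray_convex hNu (v := v) ht hts
    have hst : 1 ≤ s / t := (one_le_div ht).mpr hts
    have hgrow : 1 + c ≤ N (u + s • v) := by
      have h1 : c ≤ (s / t) * (N (u + t • v) - 1) := by
        calc c = 1 * c := by ring
          _ ≤ (s / t) * c := mul_le_mul_of_nonneg_right hst hc.le
          _ ≤ (s / t) * (N (u + t • v) - 1) :=
            mul_le_mul_of_nonneg_left hcv (le_trans zero_le_one hst)
      linarith
    have huv : u + s • v = (N x)⁻¹ • (x + w) := by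
      have h1 : N w / N x * (N w)⁻¹ = (N x)⁻¹ := by
        field_simp
      rw [hu_def, hv_def, hs_def, smul_smul, h1, smul_add]
    have hNxw : (1 + c) * N x ≤ N (x + w) := by
      have h1 : N (u + s • v) = (N x)⁻¹ * N (x + w) := by
        rw [huv, hN.2.1, abs_of_pos (inv_pos.mpr hNx)]
      rw [h1] at hgrow
      have h2 : (1 + c) * N x ≤ (N x)⁻¹ * N (x + w) * N x :=
        mul_le_mul_of_nonneg_right hgrow hNx.le
      have h3 : (N x)⁻¹ * N (x + w) * N x = N (x + w) := by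
        field_simp
      linarith
    have hNx' : (1 + c / 2) * N x ≤ N x' := by
      have h1 : N (x + w) ≤ N x' + N (x' - x - w) := by
        have h2 : x + w = x' + -(x' - x - w) := by abel
        rw [h2]
        refine (hN.1 _ _).trans ?_
        rw [hN.neg]
      have h3 : N (x' - x - w) ≤ b * ε :=
        (hab _).2.trans (mul_le_mul_of_nonneg_left hclose.le hb.le)
      have h4 : b * ε ≤ c * N x / 2 := by
        have h5 : ε ≤ c * N x / (2 * b) := min_le_right _ _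
        calc b * ε ≤ b * (c * N x / (2 * b)) := mul_le_mul_of_nonneg_left h5 hb.le
          _ = c * N x / 2 := by field_simp
      nlinarith
    have hNx'pos : 0 < N x' := lt_of_lt_of_le (by positivity) hNx'
    obtain ⟨z, hzR, hz⟩ := ih x' hx' hNx'pos
    refine ⟨z, hzR, le_trans ?_ hz⟩
    rw [pow_succ, mul_assoc]
    exact mul_le_mul_of_nonneg_left hNx' (by positivity)

/-- **Criterion.** If a normed space contains bounded asymptotic trees of every height (with a
root of norm at least `r > 0` and increments of norm at least `δ > 0`), then no equivalent norm is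
asymptotically uniformly convex. -/
theorem not_isAUCG_of_treeNode {R δ r : ℝ} (hδ : 0 < δ) (hr : 0 < r)
    (h : ∀ k : ℕ, ∃ x : X, r ≤ ‖x‖ ∧ TreeNode R δ k x)
    (N : X → ℝ) (hN : IsEquivNormG N) : ¬ IsAUCG N := by
  intro hauc
  obtain ⟨a, b, ha, hab⟩ := hN.2.2
  obtain ⟨x₀, hx₀r, hx₀⟩ := h 0
  have hR : 0 < R := lt_of_lt_of_le hr (hx₀r.trans hx₀.norm_le)
  have hb : 0 < b := by
    have h1 := (hab x₀).1
    have h2 := (hab x₀).2
    have h3 : 0 < a * ‖x₀‖ := mul_pos ha (lt_of_lt_of_le hr hx₀r)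
    have h4 : 0 < b * ‖x₀‖ := lt_of_lt_of_le h3 (h1.trans h2)
    by_contra hb
    have hb' : b ≤ 0 := not_lt.mp hb
    have : b * ‖x₀‖ ≤ 0 := mul_nonpos_of_nonpos_of_nonneg hb' (norm_nonneg _)
    linarith
  obtain ⟨c, hc, hcF⟩ := hauc (a * δ / (2 * b * R)) (by positivity)
  have hgrow := TreeNode.exists_growth hδ hN ha hb hab hR hc hcF
  obtain ⟨k, hk⟩ := pow_unbounded_of_one_lt (b * R / (a * r)) (show (1 : ℝ) < 1 + c / 2 by linarith)
  obtain ⟨x, hxr, hx⟩ := h k
  have hNx : a * r ≤ N x := (mul_le_mul_of_nonneg_left hxr ha.le).trans (hab x).1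
  have hNxpos : 0 < N x := lt_of_lt_of_le (by positivity) hNx
  obtain ⟨z, hzR, hz⟩ := hgrow k x hx hNxpos
  have hNz : N z ≤ b * R := (hab z).2.trans (mul_le_mul_of_nonneg_left hzR hb.le)
  have h1 : b * R < (1 + c / 2) ^ k * (a * r) := by
    rwa [div_lt_iff₀ (by positivity)] at hk
  have h2 : (1 + c / 2) ^ k * (a * r) ≤ (1 + c / 2) ^ k * N x :=
    mul_le_mul_of_nonneg_left hNx (by positivity)
  linarith

/-- Closed-tree form of the criterion: a nonempty bounded set `T` such that every `x ∈ T` has, for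
every closed finite-codimensional `F` and `ε > 0`, some `x' ∈ T` with `‖x' - x‖ ≥ δ` and `x' - x`
within `ε` of `F`. -/
theorem not_isAUCG_of_tree {T : Set X} {R δ : ℝ} (hδ : 0 < δ) (hT : T.Nonempty)
    (hR : ∀ x ∈ T, ‖x‖ ≤ R)
    (hstep : ∀ x ∈ T, ∀ F : Set X, IsCofG F → ∀ ε : ℝ, 0 < ε →
      ∃ x' ∈ T, ∃ w ∈ F, ‖x' - x - w‖ < ε ∧ δ ≤ ‖x' - x‖)
    (N : X → ℝ) (hN : IsEquivNormG N) : ¬ IsAUCG N := by
  have hnode : ∀ (k : ℕ) (x : X), x ∈ T → TreeNode R δ k x := by
    intro k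
    induction k with
    | zero => exact fun x hx => hR x hx
    | succ k ih =>
      intro x hx
      refine ⟨hR x hx, fun F hF ε hε => ?_⟩
      obtain ⟨x', hx', w, hw, h1, h2⟩ := hstep x hx F hF ε hε
      exact ⟨x', w, ih x' hx', hw, h1, h2⟩
  obtain ⟨x₀, hx₀⟩ := hT
  obtain ⟨x₁, hx₁, -, -, -, hfar⟩ := hstep x₀ hx₀ Set.univ isCofG_univ 1 one_pos
  have hbig : ∃ x ∈ T, δ / 2 ≤ ‖x‖ := by
    by_contra hcon
    have h0 : ‖x₀‖ < δ / 2 := by
      by_contra h
      exact hcon ⟨x₀, hx₀, not_lt.mp h⟩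
    have h1 : ‖x₁‖ < δ / 2 := by
      by_contra h
      exact hcon ⟨x₁, hx₁, not_lt.mp h⟩
    have : ‖x₁ - x₀‖ ≤ ‖x₁‖ + ‖x₀‖ := norm_sub_le _ _
    linarith
  obtain ⟨x, hxT, hxn⟩ := hbig
  exact not_isAUCG_of_treeNode hδ (half_pos hδ) (fun k => ⟨x, hxn, hnode k x hxT⟩) N hN

/-! ### Preimages, finite intersections -/

theorem IsCofG.preimage {Y : Type*} [NormedAddCommGroup Y] [NormedSpace ℝ Y] (T : Y →L[ℝ] X)
    {F : Set X} (hF : IsCofG F) : IsCofG (T ⁻¹' F) := by
  obtain ⟨S, rfl, hSc, hSf⟩ := hF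
  refine ⟨S.comap (T : Y →ₗ[ℝ] X), rfl, hSc.preimage T.continuous, ?_⟩
  let Ψ : Y →ₗ[ℝ] X ⧸ S := S.mkQ.comp (T : Y →ₗ[ℝ] X)
  have hker : LinearMap.ker Ψ = S.comap (T : Y →ₗ[ℝ] X) := by
    ext y
    simp [Ψ]
  have h1 : FiniteDimensional ℝ (Y ⧸ LinearMap.ker Ψ) :=
    Ψ.quotKerEquivRange.symm.finiteDimensional
  exact (Submodule.quotEquivOfEq _ _ hker).finiteDimensional

theorem IsCofG.biInter_finset {ι : Type*} (s : Finset ι) {F : ι → Set X}
    (hF : ∀ i ∈ s, IsCofG (F i)) : IsCofG (⋂ i ∈ s, F i) := by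
  classical
  induction s using Finset.induction_on with
  | empty => simpa using isCofG_univ
  | insert i s hi ih =>
    rw [Finset.set_biInter_insert]
    exact (hF i (Finset.mem_insert_self i s)).inter
      (ih fun j hj => hF j (Finset.mem_insert_of_mem hj))

theorem IsCofG.iInter_fin {n : ℕ} {F : Fin n → Set X} (hF : ∀ i, IsCofG (F i)) :
    IsCofG (⋂ i, F i) := by
  have := IsCofG.biInter_finset (Finset.univ : Finset (Fin n)) (F := F) (fun i _ => hF i)
  simpa using this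

/-! ### Trees given by children sequences with `ℓ₂`-type upper estimates -/

/-- Closed-tree criterion with children sequences satisfying a square-root bound. -/
theorem not_isAUCG_of_sqrt_tree {T : Set X} {R δ : ℝ} (hδ : 0 < δ) (hT : T.Nonempty)
    (hR : ∀ x ∈ T, ‖x‖ ≤ R)
    (hchild : ∀ x ∈ T, ∃ d : ℕ → X, (∀ a, x + d a ∈ T) ∧ (∀ a, δ ≤ ‖d a‖) ∧
      ∃ C : ℝ, ∀ s : Finset ℕ, ‖∑ a ∈ s, d a‖ ≤ C * Real.sqrt s.card)
    (N : X → ℝ) (hN : IsEquivNormG N) : ¬ IsAUCG N := by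
  refine not_isAUCG_of_tree hδ hT hR (fun x hx F hF ε hε => ?_) N hN
  obtain ⟨d, hdT, hdδ, C, hC⟩ := hchild x hx
  obtain ⟨k, w, hw, hk⟩ := hF.exists_close_of_sqrt_bound d hC hε
  refine ⟨x + d k, hdT k, w, hw, ?_, ?_⟩
  · simpa [add_sub_cancel_left] using hk
  · simpa using hdδ k

/-- A sequence bounded below in norm with a square-root bound on finite sums cannot live in a
finite-dimensional space. -/
theorem not_finiteDimensional_of_sqrt_seq {δ : ℝ} (hδ : 0 < δ) (d : ℕ → X)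
    (hd : ∀ a, δ ≤ ‖d a‖) {C : ℝ}
    (hC : ∀ s : Finset ℕ, ‖∑ a ∈ s, d a‖ ≤ C * Real.sqrt s.card) :
    ¬ FiniteDimensional ℝ X := by
  intro hfd
  obtain ⟨k, w, hw, hk⟩ :=
    (isCofG_zero_of_finiteDimensional (X := X)).exists_close_of_sqrt_bound d hC hδ
  rw [Set.mem_singleton_iff] at hw
  subst hw
  rw [sub_zero] at hk
  linarith [hd k]

/-- Finite-height trees given by children sequences with square-root bounds. -/
def SqrtTree (R δ : ℝ) : ℕ → X → Prop
  | 0, x => ‖x‖ ≤ R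
  | k + 1, x => ‖x‖ ≤ R ∧ ∃ d : ℕ → X, (∀ a, SqrtTree R δ k (x + d a)) ∧ (∀ a, δ ≤ ‖d a‖) ∧
      ∃ C : ℝ, ∀ s : Finset ℕ, ‖∑ a ∈ s, d a‖ ≤ C * Real.sqrt s.card

theorem SqrtTree.treeNode {R δ : ℝ} : ∀ {k : ℕ} {x : X}, SqrtTree R δ k x → TreeNode R δ k x
  | 0, _, h => h
  | k + 1, x, h => by
    obtain ⟨hx, d, hd, hdδ, C, hC⟩ := h
    refine ⟨hx, fun F hF ε hε => ?_⟩
    obtain ⟨a, w, hw, ha⟩ := hF.exists_close_of_sqrt_bound d hC hε
    refine ⟨x + d a, w, (hd a).treeNode, hw, ?_, ?_⟩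
    · simpa [add_sub_cancel_left] using ha
    · simpa using hdδ a

/-- Square-root trees are preserved by linear isometric embeddings. -/
theorem SqrtTree.map {Y : Type*} [NormedAddCommGroup Y] [NormedSpace ℝ Y] (ι : Y →ₗᵢ[ℝ] X)
    {R δ : ℝ} : ∀ {k : ℕ} {y : Y}, SqrtTree R δ k y → SqrtTree R δ k (ι y)
  | 0, y, h => by
    show ‖ι y‖ ≤ R
    rw [ι.norm_map]
    exact h
  | k + 1, y, h => by
    obtain ⟨hy, d, hd, hdδ, C, hC⟩ := h
    refine ⟨by rw [ι.norm_map]; exact hy, fun a => ι (d a), fun a => ?_, fun a => ?_, C, fun s => ?_⟩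
    · have := (hd a).map ι
      rwa [map_add] at this
    · rw [ι.norm_map]
      exact hdδ a
    · rw [← map_sum, ι.norm_map]
      exact hC s

/-- Criterion with square-root trees of every height. -/
theorem not_isAUCG_of_sqrtTree {R δ r : ℝ} (hδ : 0 < δ) (hr : 0 < r)
    (h : ∀ k : ℕ, ∃ x : X, r ≤ ‖x‖ ∧ SqrtTree R δ k x)
    (N : X → ℝ) (hN : IsEquivNormG N) : ¬ IsAUCG N :=
  not_isAUCG_of_treeNode hδ hr (fun k => by
    obtain ⟨x, hx, hxt⟩ := h k
    exact ⟨x, hx, hxt.treeNode⟩) N hN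

end Generic

theorem isCof_iff (E : RealBanach) (F : Set E.X) :
    E.IsCof F ↔ @IsCofG E.X E.normed E.space F := Iff.rfl

theorem isEquivNorm_iff (E : RealBanach) (N : E.X → ℝ) :
    E.IsEquivNorm N ↔ @IsEquivNormG E.X E.normed E.space N := Iff.rfl

theorem isAUC_iff (E : RealBanach) (N : E.X → ℝ) :
    E.IsAUC N ↔ @IsAUCG E.X E.normed E.space N := Iff.rfl

end Crest.Agent.S0166.Helper32
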