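import Mathlib
import Crest.Prelude.Def_AsymptoticConvexity
import Crest.Prelude.Def_TreePotentials
import Crest.Agent.Lib.S0166.Helper32Core

/-!
The space used for S0166: the `ℓ₂`-sum over `k` of the depth-`≤ k` truncations of the global
tree-potential model of `Def_TreePotentials`.
-/

set_option autoImplicit false

namespace Crest.Agent.S0166.Helper32

open Crest.AnalysisR Crest.AnalysisR.TreePotential

/-- The depth-`≤ k` truncation of the global model: the closed span, inside the ambient sup-norm
space of the global model, of the coordinate vectors of the vertices of length at most `k`. -/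
noncomputable def truncSpace (k : ℕ) :
    Submodule ℝ (lp (fun _ : PotentialTest PotentialModel.global => ℝ) ⊤) :=
  (Submodule.span ℝ (coordVector PotentialModel.global '' {u : List ℕ | u.length ≤ k})).topologicalClosure

theorem truncSpace_isClosed (k : ℕ) :
    IsClosed (truncSpace k : Set (lp (fun _ : PotentialTest PotentialModel.global => ℝ) ⊤)) :=
  Submodule.isClosed_topologicalClosure _

instance truncSpace_completeSpace (k : ℕ) : CompleteSpace (truncSpace k) :=
  (truncSpace_isClosed k).completeSpace_coe

theorem truncSpace_le_modelSpace (k : ℕ) : truncSpace k ≤ modelSpace PotentialModel.global := by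
  apply Submodule.topologicalClosure_mono
  apply Submodule.span_mono
  rintro _ ⟨u, -, rfl⟩
  exact Set.mem_range_self u

/-- The Banach space of S0166: the `ℓ₂`-sum of the truncations. -/
noncomputable def E0 : RealBanach :=
  ⟨lp (fun k : ℕ => truncSpace k) 2, inferInstance, inferInstance, inferInstance⟩

example : E0.X = lp (fun k : ℕ => truncSpace k) 2 := rfl

end Crest.Agent.S0166.Helper32
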