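import Mathlib
import Crest.Prelude.Def_AsymptoticConvexity
import Crest.Agent.Lib.S0166.Helper32Core

/-!
From the max-midpoint modulus `√(1 + t²/4) - 1` (all `t > 0`) to the two averaged midpoint bounds
of S0166.
-/

set_option autoImplicit false

namespace Crest.Agent.S0166.Helper32

open Crest.AnalysisR

section Generic

variable {X : Type*} [NormedAddCommGroup X] [NormedSpace ℝ X]

/-- On the kernel of a norming functional of a unit vector `x`, `‖x + z‖ ≥ 1`. -/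
theorem exists_cof_norm_ge_one (x : X) (hx : ‖x‖ = 1) :
    ∃ F : Set X, IsCofG F ∧ ∀ z ∈ F, 1 ≤ ‖x + z‖ := by
  have hx0 : ‖x‖ ≠ 0 := by
    rw [hx]
    exact one_ne_zero
  obtain ⟨φ, hφ, hφx⟩ := exists_dual_vector ℝ x hx0
  refine ⟨{z | φ z = 0}, isCofG_ker φ, fun z hz => ?_⟩
  have h1 : φ (x + z) = 1 := by
    rw [map_add, hz, add_zero, hφx, hx]
    simp
  have h2 : ‖φ (x + z)‖ ≤ ‖φ‖ * ‖x + z‖ := φ.le_opNorm _
  rw [h1, hφ, one_mul] at h2
  simpa using h2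

theorem sqrt_twelve_le (t : ℝ) (ht : 0 < t) :
    Real.sqrt (1 + t ^ 2 / 12) ≤ max ((1 + Real.sqrt (1 + t ^ 2 / 4)) / 2) t := by
  set m := Real.sqrt (1 + t ^ 2 / 4) with hm
  have hm0 : 0 ≤ m := Real.sqrt_nonneg _
  have hm2 : m ^ 2 = 1 + t ^ 2 / 4 := Real.sq_sqrt (by positivity)
  by_cases hcase : t ^ 2 ≤ 96
  · refine le_trans ?_ (le_max_left _ _)
    apply Real.sqrt_le_iff.mpr
    refine ⟨by positivity, ?_⟩
    have h1 : 1 + t ^ 2 / 24 ≤ m := by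
      apply Real.le_sqrt_of_sq_le
      nlinarith [sq_nonneg t, sq_nonneg (t ^ 2)]
    nlinarith
  · refine le_trans ?_ (le_max_right _ _)
    apply Real.sqrt_le_iff.mpr
    refine ⟨ht.le, ?_⟩
    have : 96 < t ^ 2 := not_le.mp hcase
    nlinarith

/-- Generic statement: the max-midpoint modulus `√(1 + t²/4) - 1` implies both averaged midpoint
bounds. -/
theorem midpoint_of_maxMidpointG
    (h : ∀ t : ℝ, 0 < t → ∀ x : X, ‖x‖ = 1 → ∀ η : ℝ, 0 < η → ∃ F : Set X, IsCofG F ∧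
      ∀ y ∈ F, ‖y‖ = 1 →
        Real.sqrt (1 + t ^ 2 / 4) - 1 - η ≤ max ‖x + t • y‖ ‖x - t • y‖ - 1)
    (t : ℝ) (ht : 0 < t) (x : X) (hx : ‖x‖ = 1) (η : ℝ) (hη : 0 < η) :
    ∃ F : Set X, IsCofG F ∧ ∀ y ∈ F, ‖y‖ = 1 →
      (Real.sqrt (1 + t ^ 2 / 12) - 1 - η ≤ (‖x + t • y‖ + ‖x - t • y‖) / 2 - 1) ∧
      ((Real.sqrt (1 + t ^ 2 / 4) - 1) / 2 - η ≤ (‖x + t • y‖ + ‖x - t • y‖) / 2 - 1) := by
  obtain ⟨F₁, hF₁, h1⟩ := h t ht x hx η hη
  obtain ⟨F₂, hF₂, h2⟩ := exists_cof_norm_ge_one x hx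
  refine ⟨F₁ ∩ F₂, hF₁.inter hF₂, fun y hy hy1 => ?_⟩
  have hmax := h1 y hy.1 hy1
  have hp : 1 ≤ ‖x + t • y‖ := h2 _ (hF₂.smul_mem t hy.2)
  have hq : 1 ≤ ‖x - t • y‖ := by
    have := h2 _ (hF₂.neg_mem (hF₂.smul_mem t hy.2))
    rwa [← sub_eq_add_neg] at this
  have hsum : max ‖x + t • y‖ ‖x - t • y‖ + 1 ≤ ‖x + t • y‖ + ‖x - t • y‖ := by
    rcases le_total ‖x + t • y‖ ‖x - t • y‖ with hle | hle
    · rw [max_eq_right hle]; linarith
    · rw [max_eq_left hle]; linarith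
  have htri : 2 * t ≤ ‖x + t • y‖ + ‖x - t • y‖ := by
    have h3 : (x + t • y) - (x - t • y) = (2 * t) • y := by
      rw [mul_smul, two_smul]; abel
    have h4 : ‖(x + t • y) - (x - t • y)‖ ≤ ‖x + t • y‖ + ‖x - t • y‖ := norm_sub_le _ _
    rw [h3, norm_smul, hy1, mul_one, Real.norm_eq_abs, abs_of_pos (by positivity)] at h4
    exact h4
  have h12 := sqrt_twelve_le t ht
  constructor
  · rcases le_max_iff.mp h12 with hc | hc
    · linarith
    · linarith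
  · linarith

end Generic

/-- `RealBanach` form. -/
theorem midpoint_of_maxMidpoint (E : RealBanach)
    (h : ∀ t : ℝ, 0 < t → E.MaxMidpointModulusGE E.norm t (Real.sqrt (1 + t ^ 2 / 4) - 1))
    (t : ℝ) (ht : 0 < t) :
    E.MidpointModulusGE E.norm t (Real.sqrt (1 + t ^ 2 / 12) - 1) ∧
      E.MidpointModulusGE E.norm t ((Real.sqrt (1 + t ^ 2 / 4) - 1) / 2) := by
  letI := E.normed
  letI := E.space
  have key := fun (x : E.X) (hx : ‖x‖ = 1) (η : ℝ) (hη : 0 < η) =>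
    midpoint_of_maxMidpointG (X := E.X) (fun t ht x hx η hη => h t ht x hx η hη) t ht x hx η hη
  constructor
  · intro x hx η hη
    obtain ⟨F, hF, hy⟩ := key x hx η hη
    exact ⟨F, hF, fun y hyF hy1 => (hy y hyF hy1).1⟩
  · intro x hx η hη
    obtain ⟨F, hF, hy⟩ := key x hx η hη
    exact ⟨F, hF, fun y hyF hy1 => (hy y hyF hy1).2⟩

end Crest.Agent.S0166.Helper32
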