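import Mathlib

/-!
# Reflexivity toolkit for S0166 (package P166B)

* `reflexive_of_equiv` : reflexivity transports along a continuous linear equivalence;
* `reflexive_of_inner` : Hilbert spaces are reflexive;
* `lp_two_reflexive`   : the `ℓ²`-sum of a sequence of reflexive Banach spaces is reflexive.

"Reflexive" is spelled `Function.Surjective (NormedSpace.inclusionInDoubleDual ℝ _)`.
-/

set_option autoImplicit false

namespace Crest.Agent.S0166.Helper49

open scoped ENNReal NNReal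

theorem reflexive_of_equiv {V W : Type*} [NormedAddCommGroup V] [NormedSpace ℝ V]
    [NormedAddCommGroup W] [NormedSpace ℝ W] (e : V ≃L[ℝ] W)
    (h : Function.Surjective (NormedSpace.inclusionInDoubleDual ℝ W)) :
    Function.Surjective (NormedSpace.inclusionInDoubleDual ℝ V) := by
  intro Λ
  obtain ⟨w, hw⟩ := h (Λ.comp (ContinuousLinearMap.precomp ℝ (e : V →L[ℝ] W)))
  refine ⟨e.symm w, ?_⟩
  ext φ
  have h1 := congrArg (fun L => L (φ.comp (e.symm : W →L[ℝ] V))) hw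
  simp only [NormedSpace.dual_def, ContinuousLinearMap.coe_comp, Function.comp_apply,
    ContinuousLinearMap.precomp_apply, ContinuousLinearEquiv.coe_coe] at h1
  rw [NormedSpace.dual_def, h1]
  congr 1
  ext v
  simp

theorem reflexive_of_inner {H : Type*} [NormedAddCommGroup H] [InnerProductSpace ℝ H]
    [CompleteSpace H] : Function.Surjective (NormedSpace.inclusionInDoubleDual ℝ H) := by
  intro Λ
  -- `Λ ∘ innerSL` is a functional on `H`, represented by some `x`
  let T : H →L[ℝ] StrongDual ℝ H := (innerSL ℝ (E := H) : H →L[ℝ] H →L[ℝ] ℝ)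
  refine ⟨(InnerProductSpace.toDual ℝ H).symm (Λ.comp T), ?_⟩
  ext φ
  obtain ⟨y, rfl⟩ := (InnerProductSpace.toDual ℝ H).surjective φ
  rw [NormedSpace.dual_def, InnerProductSpace.toDual_apply_apply, real_inner_comm,
    InnerProductSpace.toDual_symm_apply]
  rfl


section Main

private lemma aux_sq {S L N : ℝ} (hL : 0 ≤ L) (hN : 0 ≤ N) (h1 : S ≤ L * N) (h2 : N ^ 2 ≤ S) :
    S ≤ L ^ 2 := by
  rcases hN.eq_or_lt with h0 | hpos
  · subst h0; nlinarith
  · have : N ≤ L := by nlinarith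
    nlinarith

private lemma norm_sum_single_sq_le (E : ℕ → Type) [∀ k, NormedAddCommGroup (E k)]
    [∀ k, NormedSpace ℝ (E k)] (s : Finset ℕ) (c : ℕ → ℝ) (v : ∀ k, E k) (hv : ∀ k, ‖v k‖ ≤ 1) :
    ‖∑ k ∈ s, lp.single 2 k (c k • v k)‖ ^ 2 ≤ ∑ k ∈ s, c k ^ 2 := by
  have h2 : (0:ℝ) < (2 : ℝ≥0∞).toReal := by norm_num
  have key := lp.norm_sum_single (p := 2) h2 (fun k => c k • v k) s
  have e : (2 : ℝ≥0∞).toReal = 2 := by norm_num
  rw [e] at key
  simp only [Real.rpow_two] at key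
  rw [key]
  refine Finset.sum_le_sum fun k _ => ?_
  rw [norm_smul, mul_pow, Real.norm_eq_abs, sq_abs]
  exact mul_le_of_le_one_right (sq_nonneg _) (pow_le_one₀ (norm_nonneg _) (hv k))

variable (G : ℕ → Type) [∀ k, NormedAddCommGroup (G k)] [∀ k, NormedSpace ℝ (G k)]

/-- The natural pairing map `ℓ²(G k*) → (ℓ²(G k))*`. -/
noncomputable def pair : lp (fun k => StrongDual ℝ (G k)) 2 →L[ℝ] StrongDual ℝ (lp G 2) :=
  lp.dualPairing 2 2 (fun k => ContinuousLinearMap.id ℝ (StrongDual ℝ (G k))) (K := 1)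
    (fun k => by simpa using ContinuousLinearMap.norm_id_le)

lemma pair_apply (f : lp (fun k => StrongDual ℝ (G k)) 2) (y : lp G 2) :
    pair G f y = ∑' k, f k (y k) := rfl

lemma norm_pair_le : ‖pair G‖ ≤ 1 := by
  simpa [pair] using lp.norm_dualPairing (p := 2) (q := 2)
    (fun k => ContinuousLinearMap.id ℝ (StrongDual ℝ (G k))) (K := 1)
    (fun k => by simpa using ContinuousLinearMap.norm_id_le)

lemma pair_single (k : ℕ) (g : StrongDual ℝ (G k)) (y : lp G 2) :
    pair G (lp.single 2 k g) y = g (y k) := by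
  rw [pair_apply, tsum_eq_single k]
  · simp
  · intro j hj
    simp [hj]

lemma pair_apply_single (f : lp (fun k => StrongDual ℝ (G k)) 2) (k : ℕ) (u : G k) :
    pair G f (lp.single 2 k u) = f k u := by
  rw [pair_apply, tsum_eq_single k]
  · simp
  · intro j hj
    simp [hj]

end Main

theorem lp_two_reflexive (G : ℕ → Type) [∀ k, NormedAddCommGroup (G k)]
    [∀ k, NormedSpace ℝ (G k)] [∀ k, CompleteSpace (G k)]
    (h : ∀ k, Function.Surjective (NormedSpace.inclusionInDoubleDual ℝ (G k))) :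
    Function.Surjective (NormedSpace.inclusionInDoubleDual ℝ (lp G 2)) := by
  intro Λ
  have h2 : (2 : ℝ≥0∞) ≠ ⊤ := by norm_num
  have e2 : (2 : ℝ≥0∞).toReal = 2 := by norm_num
  -- coordinates of `Λ`
  have hx : ∀ k, ∃ x : G k, ∀ ψ : StrongDual ℝ (G k), Λ (pair G (lp.single 2 k ψ)) = ψ x := by
    intro k
    obtain ⟨x, hx⟩ := h k (Λ.comp ((pair G).comp
      (lp.singleContinuousLinearMap ℝ (fun k => StrongDual ℝ (G k)) 2 k)))
    refine ⟨x, fun ψ => ?_⟩
    have := congrArg (fun L => L ψ) hx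
    simpa [NormedSpace.dual_def] using this.symm
  choose x hx using hx
  -- Step 1: `x` is square summable
  have hmem : Memℓp x 2 := by
    refine memℓp_gen' (C := ‖Λ‖ ^ 2) fun s => ?_
    rw [e2]; simp only [Real.rpow_two]
    have hψ : ∀ k, ∃ ψ : StrongDual ℝ (G k), ‖ψ‖ ≤ 1 ∧ ψ (x k) = ‖x k‖ :=
      fun k => exists_dual_vector'' ℝ (x k)
    choose ψ hψ1 hψ2 using hψ
    set F : lp (fun k => StrongDual ℝ (G k)) 2 := ∑ k ∈ s, lp.single 2 k (‖x k‖ • ψ k) with hF
    have hval : Λ (pair G F) = ∑ k ∈ s, ‖x k‖ ^ 2 := by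
      rw [hF, map_sum, map_sum]
      refine Finset.sum_congr rfl fun k _ => ?_
      rw [hx k]; simp [hψ2 k, sq]
    have hF2 : ‖F‖ ^ 2 ≤ ∑ k ∈ s, ‖x k‖ ^ 2 :=
      norm_sum_single_sq_le _ s (fun k => ‖x k‖) ψ hψ1
    have hle : ∑ k ∈ s, ‖x k‖ ^ 2 ≤ ‖Λ‖ * ‖F‖ := by
      rw [← hval]
      calc Λ (pair G F) ≤ ‖Λ (pair G F)‖ := Real.le_norm_self _
        _ ≤ ‖Λ‖ * ‖pair G F‖ := Λ.le_opNorm _
        _ ≤ ‖Λ‖ * ‖F‖ := by
            gcongr
            calc ‖pair G F‖ ≤ ‖pair G‖ * ‖F‖ := (pair G).le_opNorm _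
              _ ≤ 1 * ‖F‖ := by gcongr; exact norm_pair_le G
              _ = ‖F‖ := one_mul _
    exact aux_sq (norm_nonneg Λ) (norm_nonneg F) hle hF2
  refine ⟨⟨x, hmem⟩, ?_⟩
  ext φ
  rw [NormedSpace.dual_def]
  -- Step 2: the functional `φ` comes from a square summable family of functionals
  set f : ∀ k, StrongDual ℝ (G k) := fun k => φ.comp (lp.singleContinuousLinearMap ℝ G 2 k)
    with hf
  have hfmem : Memℓp f 2 := by
    refine memℓp_gen' (C := ‖φ‖ ^ 2) fun s => ?_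
    rw [e2]; simp only [Real.rpow_two]
    -- exact norming vectors, from reflexivity of the summands
    have hu : ∀ k, ∃ u : G k, ‖u‖ ≤ 1 ∧ f k u = ‖f k‖ := by
      intro k
      obtain ⟨Θ, hΘ1, hΘ2⟩ := exists_dual_vector'' ℝ (f k)
      obtain ⟨u, rfl⟩ := h k Θ
      refine ⟨u, ?_, ?_⟩
      · have := (NormedSpace.inclusionInDoubleDualLi (E := G k) ℝ).norm_map u
        rw [← this]; exact hΘ1
      · simpa [NormedSpace.dual_def] using hΘ2
    choose u hu1 hu2 using hu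
    set y : lp G 2 := ∑ k ∈ s, lp.single 2 k (‖f k‖ • u k) with hy
    have hval : φ y = ∑ k ∈ s, ‖f k‖ ^ 2 := by
      rw [hy, map_sum]
      refine Finset.sum_congr rfl fun k _ => ?_
      have h3 : φ (lp.single 2 k (‖f k‖ • u k)) = f k (‖f k‖ • u k) := rfl
      rw [h3, map_smul, hu2 k]; simp [sq]
    have hy2 : ‖y‖ ^ 2 ≤ ∑ k ∈ s, ‖f k‖ ^ 2 :=
      norm_sum_single_sq_le _ s (fun k => ‖f k‖) u hu1
    have hle : ∑ k ∈ s, ‖f k‖ ^ 2 ≤ ‖φ‖ * ‖y‖ := by
      rw [← hval]
      exact (Real.le_norm_self _).trans (φ.le_opNorm _)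
    exact aux_sq (norm_nonneg φ) (norm_nonneg y) hle hy2
  set ff : lp (fun k => StrongDual ℝ (G k)) 2 := ⟨f, hfmem⟩ with hff
  have hpair : pair G ff = φ := by
    ext y
    rw [pair_apply]
    have h3 := ((lp.hasSum_single h2 y).mapL φ).tsum_eq
    rw [← h3]
    rfl
  have hΛ : HasSum (fun k => f k (x k)) (Λ φ) := by
    have h3 := (lp.hasSum_single h2 ff).mapL (Λ.comp (pair G))
    have h5 : (Λ.comp (pair G)) ff = Λ φ := by rw [ContinuousLinearMap.comp_apply, hpair]
    rw [h5] at h3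
    have h4 : ∀ k, (Λ.comp (pair G)) (lp.single 2 k (ff k)) = f k (x k) := fun k => hx k (ff k)
    have h6 : (fun k => (Λ.comp (pair G)) (lp.single 2 k (ff k))) = fun k => f k (x k) :=
      funext h4
    rw [h6] at h3
    exact h3
  have hφ : HasSum (fun k => f k (x k)) (φ ⟨x, hmem⟩) :=
    (lp.hasSum_single h2 (⟨x, hmem⟩ : lp G 2)).mapL φ
  exact hφ.unique hΛ

end Crest.Agent.S0166.Helper49
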