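import Mathlib
import Crest.Prelude.Def_AsymptoticConvexity
import Crest.Prelude.Def_TreePotentials
import Crest.Agent.Lib.S0166.Helper32Core
import Crest.Agent.Lib.S0166.Helper32Defs

/-!
Row 125 / S0166, package P166D (helper72): the max-midpoint modulus of an `ℓ₂`-sum.

* `lp_two_sqMidpoint`, `lp_two_maxMidpoint`: lifting of the component midpoint inequality
  `sqrt (‖x‖² + ‖y‖²/4) - ε ≤ (‖x + y‖ + ‖x - y‖)/2` (on a closed finite-codimensional subspace)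
  to the `ℓ₂`-sum of the components.
-/

set_option autoImplicit false

namespace Crest.Agent.S0166.Helper72

open Crest.AnalysisR Crest.AnalysisR.TreePotential Crest.Agent.S0166.Helper32

section Generic

variable {X Y : Type*} [NormedAddCommGroup X] [NormedSpace ℝ X]
  [NormedAddCommGroup Y] [NormedSpace ℝ Y]

/-- Preimage of a closed finite-codimensional subspace under a continuous linear map. -/
theorem isCofG_preimage (T : Y →L[ℝ] X) {F : Set X} (hF : IsCofG F) : IsCofG (T ⁻¹' F) := by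
  obtain ⟨S, rfl, hSc, hSf⟩ := hF
  refine ⟨S.comap (T : Y →ₗ[ℝ] X), by ext; simp, hSc.preimage T.continuous, ?_⟩
  let Ψ : Y →ₗ[ℝ] (X ⧸ S) := S.mkQ.comp (T : Y →ₗ[ℝ] X)
  have hker : LinearMap.ker Ψ = S.comap (T : Y →ₗ[ℝ] X) := by
    ext y
    simp [Ψ]
  have h1 : FiniteDimensional ℝ (Y ⧸ LinearMap.ker Ψ) :=
    Ψ.quotKerEquivRange.symm.finiteDimensional
  exact (Submodule.quotEquivOfEq _ _ hker).finiteDimensional

end Generic

section Scalar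

/-- Average of squares dominates the square of the average. -/
theorem sq_avg_le (u v : ℝ) : ((u + v) / 2) ^ 2 ≤ (u ^ 2 + v ^ 2) / 2 := by
  nlinarith [sq_nonneg (u - v)]

/-- Coordinates where the component inequality is available. -/
theorem near_coord {a b u v ε0 : ℝ} (ha : 0 ≤ a) (hb : 0 ≤ b) (hu : 0 ≤ u) (hv : 0 ≤ v)
    (hε0 : 0 < ε0) (h : Real.sqrt (a ^ 2 + b ^ 2 / 4) - ε0 ≤ (u + v) / 2) :
    a ^ 2 + b ^ 2 / 4 - 2 * ε0 * (a + b / 2) ≤ (u ^ 2 + v ^ 2) / 2 := by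
  set r := Real.sqrt (a ^ 2 + b ^ 2 / 4) with hr
  have hr0 : 0 ≤ r := Real.sqrt_nonneg _
  have hr2 : r ^ 2 = a ^ 2 + b ^ 2 / 4 := Real.sq_sqrt (by positivity)
  have hrle : r ≤ a + b / 2 := by
    rw [hr]
    apply Real.sqrt_le_iff.mpr
    constructor
    · positivity
    · nlinarith [mul_nonneg ha hb]
  have havg : 0 ≤ (u + v) / 2 := by positivity
  have h1 : r ^ 2 - 2 * ε0 * r ≤ ((u + v) / 2) ^ 2 := by
    rcases le_or_gt ε0 r with h2 | h2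
    · have h3 : 0 ≤ r - ε0 := by linarith
      nlinarith [sq_nonneg ε0]
    · nlinarith [sq_nonneg ((u + v) / 2)]
  have h4 := sq_avg_le u v
  nlinarith

/-- Coordinates in the tail. -/
theorem far_coord {b u v : ℝ} (hb : 0 ≤ b) (h : 2 * b ≤ u + v) :
    b ^ 2 / 4 ≤ (u ^ 2 + v ^ 2) / 2 := by
  have h4 := sq_avg_le u v
  have h5 : b ^ 2 ≤ ((u + v) / 2) ^ 2 := by nlinarith
  nlinarith [sq_nonneg b]

end Scalar

section LpTwo

variable {G : ℕ → Type} [∀ k, NormedAddCommGroup (G k)]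

/-- Square of the norm in an `ℓ₂`-sum. -/
theorem lp2_hasSum_sq (z : lp G 2) : HasSum (fun k => ‖z k‖ ^ 2) (‖z‖ ^ 2) := by
  have h := lp.hasSum_norm (p := 2) (by simp) z
  simpa [Real.rpow_two] using h

variable [∀ k, NormedSpace ℝ (G k)]

theorem isCofG_forall_lt (Fk : ∀ k, Set (G k)) (hFk : ∀ k, IsCofG (Fk k)) (n : ℕ) :
    IsCofG {y : lp G 2 | ∀ k < n, y k ∈ Fk k} := by
  induction n with
  | zero => simpa using isCofG_univ
  | succ n ih =>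
    have : {y : lp G 2 | ∀ k < n + 1, y k ∈ Fk k}
        = {y : lp G 2 | ∀ k < n, y k ∈ Fk k} ∩ (lp.evalCLM ℝ G 2 n) ⁻¹' (Fk n) := by
      ext y
      simp only [Set.mem_ofPred_eq, Set.mem_inter_iff, Set.mem_preimage]
      constructor
      · intro hy
        exact ⟨fun k hk => hy k (Nat.lt_succ_of_lt hk), hy n (Nat.lt_succ_self n)⟩
      · rintro ⟨h1, h2⟩ k hk
        rcases Nat.lt_succ_iff_lt_or_eq.mp hk with hk | rfl
        · exact h1 k hk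
        · exact h2
    rw [this]
    exact ih.inter (isCofG_preimage _ (hFk n))

/-- **Lifting, squared form.** -/
theorem lp_two_sqMidpoint (G : ℕ → Type) [∀ k, NormedAddCommGroup (G k)]
    [∀ k, NormedSpace ℝ (G k)]
    (h : ∀ k (x : G k) (ε : ℝ), 0 < ε → ∃ F : Set (G k), IsCofG F ∧ ∀ y ∈ F,
      Real.sqrt (‖x‖ ^ 2 + ‖y‖ ^ 2 / 4) - ε ≤ (‖x + y‖ + ‖x - y‖) / 2)
    (x : lp G 2) (ε : ℝ) (hε : 0 < ε) :
    ∃ F : Set (lp G 2), IsCofG F ∧ ∀ y ∈ F,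
      ‖x‖ ^ 2 + ‖y‖ ^ 2 / 4 - ε * (1 + ‖y‖) ≤ (‖x + y‖ ^ 2 + ‖x - y‖ ^ 2) / 2 := by
  have hx := lp2_hasSum_sq x
  have htend := hx.tendsto_sum_nat
  obtain ⟨n, hn⟩ : ∃ n : ℕ, ‖x‖ ^ 2 - ε / 2 ≤ ∑ k ∈ Finset.range n, ‖x k‖ ^ 2 := by
    have h1 : ∀ᶠ n in Filter.atTop, ‖x‖ ^ 2 - ε / 2 < ∑ k ∈ Finset.range n, ‖x k‖ ^ 2 :=
      htend.eventually (lt_mem_nhds (by linarith))
    obtain ⟨n, hn⟩ := h1.exists
    exact ⟨n, hn.le⟩
  set ε0 : ℝ := ε / (4 * (n + 1) * (‖x‖ + 1)) with hε0_def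
  have hε0 : 0 < ε0 := by positivity
  choose Fk hFk hFk' using fun k => h k (x k) ε0 hε0
  refine ⟨{y : lp G 2 | ∀ k < n, y k ∈ Fk k}, isCofG_forall_lt Fk hFk n, fun y hy => ?_⟩
  have hy' : ∀ k < n, y k ∈ Fk k := hy
  -- pointwise lower bound
  set g : ℕ → ℝ := fun k => ‖y k‖ ^ 2 / 4 +
    (if k < n then ‖x k‖ ^ 2 - 2 * ε0 * (‖x k‖ + ‖y k‖ / 2) else 0) with hg
  have hpt : ∀ k, g k ≤ (‖(x + y) k‖ ^ 2 + ‖(x - y) k‖ ^ 2) / 2 := by
    intro k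
    have e1 : (x + y) k = x k + y k := rfl
    have e2 : (x - y) k = x k - y k := rfl
    rw [e1, e2]
    simp only [hg]
    split_ifs with hk
    · have := near_coord (norm_nonneg (x k)) (norm_nonneg (y k)) (norm_nonneg (x k + y k))
        (norm_nonneg (x k - y k)) hε0 (hFk' k (y k) (hy' k hk))
      linarith
    · have h2 : 2 * ‖y k‖ ≤ ‖x k + y k‖ + ‖x k - y k‖ := by
        have h3 : (2 : ℝ) • y k = (x k + y k) - (x k - y k) := by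
          rw [two_smul]; abel
        have h4 : ‖(2 : ℝ) • y k‖ = 2 * ‖y k‖ := by
          rw [norm_smul]; simp
        rw [← h4, h3]
        exact norm_sub_le _ _
      have := far_coord (norm_nonneg (y k)) h2
      linarith
  -- sums
  have hsum_g : HasSum g (‖y‖ ^ 2 / 4 +
      ∑ k ∈ Finset.range n, (‖x k‖ ^ 2 - 2 * ε0 * (‖x k‖ + ‖y k‖ / 2))) := by
    refine ((lp2_hasSum_sq y).div_const 4).add ?_
    have h1 : HasSum (fun k : ℕ => if k < n then ‖x k‖ ^ 2 - 2 * ε0 * (‖x k‖ + ‖y k‖ / 2) else 0)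
        (∑ k ∈ Finset.range n,
          (if k < n then ‖x k‖ ^ 2 - 2 * ε0 * (‖x k‖ + ‖y k‖ / 2) else 0)) := by
      apply hasSum_sum_of_ne_finset_zero
      intro k hk
      rw [Finset.mem_range] at hk
      simp [hk]
    have h2 : ∑ k ∈ Finset.range n,
          (if k < n then ‖x k‖ ^ 2 - 2 * ε0 * (‖x k‖ + ‖y k‖ / 2) else 0)
        = ∑ k ∈ Finset.range n, (‖x k‖ ^ 2 - 2 * ε0 * (‖x k‖ + ‖y k‖ / 2)) := by
      apply Finset.sum_congr rfl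
      intro k hk
      rw [Finset.mem_range] at hk
      simp [hk]
    rw [← h2]
    exact h1
  have hsum_L : HasSum (fun k => (‖(x + y) k‖ ^ 2 + ‖(x - y) k‖ ^ 2) / 2)
      ((‖x + y‖ ^ 2 + ‖x - y‖ ^ 2) / 2) :=
    ((lp2_hasSum_sq (x + y)).add (lp2_hasSum_sq (x - y))).div_const 2
  have hle := hasSum_le hpt hsum_g hsum_L
  -- estimate the finite sums
  have hB : ∑ k ∈ Finset.range n, (2 * ε0 * (‖x k‖ + ‖y k‖ / 2))
      ≤ n * (2 * ε0 * (‖x‖ + ‖y‖ / 2)) := by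
    have h1 : ∀ k ∈ Finset.range n, 2 * ε0 * (‖x k‖ + ‖y k‖ / 2)
        ≤ 2 * ε0 * (‖x‖ + ‖y‖ / 2) := by
      intro k _
      have hxk : ‖x k‖ ≤ ‖x‖ := lp.norm_apply_le_norm (by norm_num) x k
      have hyk : ‖y k‖ ≤ ‖y‖ := lp.norm_apply_le_norm (by norm_num) y k
      have : ‖x k‖ + ‖y k‖ / 2 ≤ ‖x‖ + ‖y‖ / 2 := by linarith
      exact mul_le_mul_of_nonneg_left this (by positivity)
    calc ∑ k ∈ Finset.range n, (2 * ε0 * (‖x k‖ + ‖y k‖ / 2))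
        ≤ ∑ _k ∈ Finset.range n, (2 * ε0 * (‖x‖ + ‖y‖ / 2)) := Finset.sum_le_sum h1
      _ = n * (2 * ε0 * (‖x‖ + ‖y‖ / 2)) := by simp
  have hsplit : ∑ k ∈ Finset.range n, (‖x k‖ ^ 2 - 2 * ε0 * (‖x k‖ + ‖y k‖ / 2))
      = ∑ k ∈ Finset.range n, ‖x k‖ ^ 2
        - ∑ k ∈ Finset.range n, (2 * ε0 * (‖x k‖ + ‖y k‖ / 2)) := Finset.sum_sub_distrib _ _
  rw [hsplit] at hle
  -- arithmetic with ε0
  have hxn : 0 ≤ ‖x‖ := norm_nonneg x
  have hyn : 0 ≤ ‖y‖ := norm_nonneg y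
  have hn0 : (0 : ℝ) ≤ n := Nat.cast_nonneg n
  have hε0_eq : ε0 * (4 * (n + 1) * (‖x‖ + 1)) = ε := by
    rw [hε0_def]
    field_simp
  have hfin : (n : ℝ) * (2 * ε0 * (‖x‖ + ‖y‖ / 2)) ≤ ε / 2 * (1 + ‖y‖ / 2) := by
    have h1 : (n : ℝ) * (‖x‖ + ‖y‖ / 2) ≤ (n + 1) * ((‖x‖ + 1) * (1 + ‖y‖ / 2)) := by
      have h2 : ‖x‖ + ‖y‖ / 2 ≤ (‖x‖ + 1) * (1 + ‖y‖ / 2) := by nlinarith [mul_nonneg hxn hyn]
      have h3 : 0 ≤ (‖x‖ + 1) * (1 + ‖y‖ / 2) := by positivity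
      nlinarith
    have h4 : (n : ℝ) * (2 * ε0 * (‖x‖ + ‖y‖ / 2)) = 2 * ε0 * ((n : ℝ) * (‖x‖ + ‖y‖ / 2)) := by
      ring
    have h5 : 2 * ε0 * ((n + 1) * ((‖x‖ + 1) * (1 + ‖y‖ / 2))) = ε / 2 * (1 + ‖y‖ / 2) := by
      rw [← hε0_eq]; ring
    rw [h4, ← h5]
    exact mul_le_mul_of_nonneg_left h1 (by positivity)
  nlinarith [mul_nonneg hε.le hyn]

/-- **Lifting, max form.** -/
theorem lp_two_maxMidpoint (G : ℕ → Type) [∀ k, NormedAddCommGroup (G k)]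
    [∀ k, NormedSpace ℝ (G k)]
    (h : ∀ k (x : G k) (ε : ℝ), 0 < ε → ∃ F : Set (G k), IsCofG F ∧ ∀ y ∈ F,
      Real.sqrt (‖x‖ ^ 2 + ‖y‖ ^ 2 / 4) - ε ≤ (‖x + y‖ + ‖x - y‖) / 2)
    (x : lp G 2) (hx : ‖x‖ = 1) (t : ℝ) (ht : 0 < t) (η : ℝ) (hη : 0 < η) :
    ∃ F : Set (lp G 2), IsCofG F ∧ ∀ y ∈ F, ‖y‖ = 1 →
      Real.sqrt (1 + t ^ 2 / 4) - 1 - η ≤ max ‖x + t • y‖ ‖x - t • y‖ - 1 := by
  obtain ⟨F, hF, hFy⟩ := lp_two_sqMidpoint G h x (η / (1 + t)) (by positivity)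
  refine ⟨F, hF, fun y hy hy1 => ?_⟩
  have h1 := hFy (t • y) (hF.smul_mem t hy)
  have hty : ‖t • y‖ = t := by
    rw [norm_smul, hy1, Real.norm_eq_abs, abs_of_pos ht, mul_one]
  rw [hx, hty] at h1
  have h2 : η / (1 + t) * (1 + t) = η := by field_simp
  rw [h2] at h1
  set M := max ‖x + t • y‖ ‖x - t • y‖ with hM
  set s := Real.sqrt (1 + t ^ 2 / 4) with hs
  have hs2 : s ^ 2 = 1 + t ^ 2 / 4 := Real.sq_sqrt (by positivity)
  have hs1 : 1 ≤ s := by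
    rw [hs]
    exact Real.one_le_sqrt.mpr (by nlinarith [sq_nonneg t])
  have hM0 : 0 ≤ M := le_max_of_le_left (norm_nonneg _)
  have hMsq : (‖x + t • y‖ ^ 2 + ‖x - t • y‖ ^ 2) / 2 ≤ M ^ 2 := by
    have ha : ‖x + t • y‖ ≤ M := le_max_left _ _
    have hb : ‖x - t • y‖ ≤ M := le_max_right _ _
    have ha2 : ‖x + t • y‖ ^ 2 ≤ M ^ 2 := pow_le_pow_left₀ (norm_nonneg _) ha 2
    have hb2 : ‖x - t • y‖ ^ 2 ≤ M ^ 2 := pow_le_pow_left₀ (norm_nonneg _) hb 2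
    linarith
  by_contra hcon
  rw [not_le] at hcon
  have h3 : M < s - η := by linarith
  have h4 : 0 < s - η := lt_of_le_of_lt hM0 h3
  have h5 : M ^ 2 < (s - η) ^ 2 := by nlinarith
  nlinarith [mul_pos hη h4, mul_nonneg hη.le (sub_nonneg.mpr hs1)]

end LpTwo

section Model

/-- The component inequality on any subspace of a model space, from the core midpoint
inequality of the model (taken as a hypothesis so that this module does not depend on the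
module proving it). -/
theorem sub_midpoint_of_core (m : PotentialModel)
    (V : Submodule ℝ (lp (fun _ : PotentialTest m => ℝ) ⊤)) (hV : V ≤ modelSpace m)
    (hcore : ∀ (x : lp (fun _ : PotentialTest m => ℝ) ⊤), x ∈ modelSpace m → ∀ ε : ℝ, 0 < ε →
      ∃ (n : ℕ) (c : Fin n → (lp (fun _ : PotentialTest m => ℝ) ⊤) →L[ℝ] ℝ),
        ∀ y ∈ modelSpace m, (∀ i, c i y = 0) → ∀ a b : ℝ, 0 ≤ a → 0 ≤ b → a ^ 2 + b ^ 2 ≤ 1 →
          b ≤ 1 / 2 → 2 * a * ‖x‖ + b * ‖y‖ - ε ≤ ‖x + y‖ + ‖x - y‖)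
    (x : V) (ε : ℝ) (hε : 0 < ε) :
    ∃ F : Set V, IsCofG F ∧ ∀ y ∈ F,
      Real.sqrt (‖x‖ ^ 2 + ‖y‖ ^ 2 / 4) - ε ≤ (‖x + y‖ + ‖x - y‖) / 2 := by
  obtain ⟨n, c, hc⟩ := hcore (x : lp (fun _ : PotentialTest m => ℝ) ⊤) (hV x.2) (2 * ε)
    (by positivity)
  refine ⟨{y : V | ∀ i, ((c i).comp V.subtypeL) y = 0},
    isCofG_iInter_ker (fun i => (c i).comp V.subtypeL), fun y hy => ?_⟩
  have hy' : ∀ i, c i (y : lp (fun _ : PotentialTest m => ℝ) ⊤) = 0 := hy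
  have key := hc (y : lp (fun _ : PotentialTest m => ℝ) ⊤) (hV y.2) hy'
  have e1 : ‖(x : lp (fun _ : PotentialTest m => ℝ) ⊤) + y‖ = ‖x + y‖ := rfl
  have e2 : ‖(x : lp (fun _ : PotentialTest m => ℝ) ⊤) - y‖ = ‖x - y‖ := rfl
  have ex : ‖(x : lp (fun _ : PotentialTest m => ℝ) ⊤)‖ = ‖x‖ := rfl
  have ey : ‖(y : lp (fun _ : PotentialTest m => ℝ) ⊤)‖ = ‖y‖ := rfl
  rw [e1, e2, ex, ey] at key
  have hxn : 0 ≤ ‖x‖ := norm_nonneg x
  have hyn : 0 ≤ ‖y‖ := norm_nonneg y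
  set r := Real.sqrt (‖x‖ ^ 2 + ‖y‖ ^ 2 / 4) with hr
  have hr0 : 0 ≤ r := Real.sqrt_nonneg _
  have hr2 : r ^ 2 = ‖x‖ ^ 2 + ‖y‖ ^ 2 / 4 := Real.sq_sqrt (by positivity)
  rcases le_or_gt (3 * ‖y‖ ^ 2) (4 * ‖x‖ ^ 2) with hcase | hcase
  · rcases eq_or_lt_of_le hr0 with hr00 | hrpos
    · have : 0 ≤ (‖x + y‖ + ‖x - y‖) / 2 := by positivity
      linarith
    · have ha : 0 ≤ ‖x‖ / r := by positivity
      have hb : 0 ≤ ‖y‖ / 2 / r := by positivity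
      have hab : (‖x‖ / r) ^ 2 + (‖y‖ / 2 / r) ^ 2 ≤ 1 := by
        have h1 : (‖x‖ / r) ^ 2 + (‖y‖ / 2 / r) ^ 2 = (‖x‖ ^ 2 + ‖y‖ ^ 2 / 4) / r ^ 2 := by
          field_simp
          ring
        rw [h1, ← hr2, div_self (by positivity)]
      have hyr : ‖y‖ ≤ r := by
        have h1 : ‖y‖ ^ 2 ≤ r ^ 2 := by rw [hr2]; linarith
        exact (abs_le_of_sq_le_sq' h1 hr0).2
      have hb2 : ‖y‖ / 2 / r ≤ 1 / 2 := by
        rw [div_le_iff₀ hrpos]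
        linarith
      have k1 := key (‖x‖ / r) (‖y‖ / 2 / r) ha hb hab hb2
      have k2 : 2 * (‖x‖ / r) * ‖x‖ + ‖y‖ / 2 / r * ‖y‖ = 2 * r := by
        field_simp
        nlinarith
      rw [k2] at k1
      linarith
  · have h1 : r ≤ ‖y‖ := by
      rw [hr]
      apply Real.sqrt_le_iff.mpr
      constructor
      · exact hyn
      · linarith
    have h2 : 2 * ‖y‖ ≤ ‖x + y‖ + ‖x - y‖ := by
      have h3 : (2 : ℝ) • y = (x + y) - (x - y) := by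
        rw [two_smul]; abel
      have h4 : ‖(2 : ℝ) • y‖ = 2 * ‖y‖ := by
        rw [norm_smul]; simp
      rw [← h4, h3]
      exact norm_sub_le _ _
    linarith

/-- `trunc_midpoint` with the core midpoint inequality of the global model as a hypothesis. -/
theorem trunc_midpoint_of_core
    (hcore : ∀ (x : lp (fun _ : PotentialTest PotentialModel.global => ℝ) ⊤),
      x ∈ modelSpace PotentialModel.global → ∀ ε : ℝ, 0 < ε →
      ∃ (n : ℕ) (c : Fin n → (lp (fun _ : PotentialTest PotentialModel.global => ℝ) ⊤) →L[ℝ] ℝ),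
        ∀ y ∈ modelSpace PotentialModel.global, (∀ i, c i y = 0) → ∀ a b : ℝ, 0 ≤ a → 0 ≤ b →
          a ^ 2 + b ^ 2 ≤ 1 → b ≤ 1 / 2 → 2 * a * ‖x‖ + b * ‖y‖ - ε ≤ ‖x + y‖ + ‖x - y‖)
    (k : ℕ) (x : truncSpace k) (ε : ℝ) (hε : 0 < ε) :
    ∃ F : Set (truncSpace k), IsCofG F ∧ ∀ y ∈ F,
      Real.sqrt (‖x‖ ^ 2 + ‖y‖ ^ 2 / 4) - ε ≤ (‖x + y‖ + ‖x - y‖) / 2 :=
  sub_midpoint_of_core PotentialModel.global (truncSpace k) (truncSpace_le_modelSpace k) hcore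
    x ε hε

end Model

end Crest.Agent.S0166.Helper72
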