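import Mathlib
import Crest.Prelude.Def_AsymptoticConvexity
import Crest.Prelude.Def_TreePotentials
import Crest.Agent.Lib.S0166.Helper32Core
import Crest.Agent.Lib.S0166.Helper32Defs
import Crest.Agent.Lib.S0166.Helper72Midpoint
import Crest.Agent.Lib.S0168.Helper24Core

/-!
Row 125 / S0166, package P166D (helper72): the component midpoint inequality of the truncated
global model, and the resulting max-midpoint bound for the `ℓ₂`-sum of the truncations.
-/

set_option autoImplicit false

namespace Crest.Agent.S0166.Helper72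

open Crest.AnalysisR Crest.AnalysisR.TreePotential Crest.Agent.S0166.Helper32

/-- The component inequality in the depth-`k` truncation of the global model. -/
theorem trunc_midpoint (k : ℕ) (x : truncSpace k) (ε : ℝ) (hε : 0 < ε) :
    ∃ F : Set (truncSpace k), IsCofG F ∧ ∀ y ∈ F,
      Real.sqrt (‖x‖ ^ 2 + ‖y‖ ^ 2 / 4) - ε ≤ (‖x + y‖ + ‖x - y‖) / 2 :=
  trunc_midpoint_of_core
    (fun x hx ε hε => Crest.Agent.S0168.Helper24.core_midpoint PotentialModel.global x hx ε hε)
    k x ε hε

/-- The max-midpoint modulus bound for the `ℓ₂`-sum of the truncations (the space `E0`). -/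
theorem E0_maxMidpoint (x : lp (fun k : ℕ => truncSpace k) 2) (hx : ‖x‖ = 1) (t : ℝ) (ht : 0 < t)
    (η : ℝ) (hη : 0 < η) :
    ∃ F : Set (lp (fun k : ℕ => truncSpace k) 2), IsCofG F ∧ ∀ y ∈ F, ‖y‖ = 1 →
      Real.sqrt (1 + t ^ 2 / 4) - 1 - η ≤ max ‖x + t • y‖ ‖x - t • y‖ - 1 :=
  lp_two_maxMidpoint (fun k : ℕ => truncSpace k) (fun k x ε hε => trunc_midpoint k x ε hε)
    x hx t ht η hη

/-- The same statement in the form of `Def_AsymptoticConvexity` for the packaged space `E0`. -/
theorem E0_maxMidpointModulusGE (t : ℝ) (ht : 0 < t) :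
    E0.MaxMidpointModulusGE E0.norm t (Real.sqrt (1 + t ^ 2 / 4) - 1) := by
  intro x hx η hη
  obtain ⟨F, hF, h⟩ := E0_maxMidpoint x hx t ht η hη
  exact ⟨F, hF, fun y hy hy1 => h y hy hy1⟩

end Crest.Agent.S0166.Helper72
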