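import Mathlib
import Crest.Prelude.Def_TreePotentials
import Crest.Agent.Lib.S0166.Helper32Core
import Crest.Agent.Lib.S0166.Helper32Defs

/-!
Package P166F of row 125 (S0166): the `ℓ₂`-sum `E0t` of the depth-`k` truncations of the global
tree-potential model is separable, infinite-dimensional, and contains bounded asymptotic trees of
every height (in the sense of `Helper32.TreeNode`).

Everything here is self-contained (only `Helper32Core` is used, and `Helper32Defs` for the
final interface statements `E0_separable`, `E0_trees`, `E0_not_finiteDimensional`).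
The truncation is spelled `truncSp k`, a reducible abbreviation of
`(Submodule.span ℝ (coordVector .global '' {u | u.length ≤ k})).topologicalClosure`.
-/

set_option autoImplicit false

namespace Crest.Agent.S0166.Helper73

open Crest.AnalysisR Crest.AnalysisR.TreePotential Crest.Agent.S0166.Helper32
open scoped ENNReal

/-- The depth-`k` truncation of the global model (same expression as `Helper32.truncSpace`). -/
noncomputable abbrev truncSp (k : ℕ) :
    Submodule ℝ (lp (fun _ : PotentialTest PotentialModel.global => ℝ) ⊤) :=
  (Submodule.span ℝ (coordVector PotentialModel.global '' {u : List ℕ | u.length ≤ k})).topologicalClosure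

/-! ### Indicator tests -/

/-- The indicator family of one vertex. -/
noncomputable def indFam (w : List ℕ) : List ℕ → ℝ := fun u => if u = w then 1 else 0

theorem pathPotential_indFam (w s : List ℕ) :
    pathPotential (indFam w) s = if w <:+ s then 1 else 0 := by
  induction s with
  | nil =>
    by_cases h : w = []
    · subst h; simp [pathPotential, indFam]
    · have h' : ¬ ([] : List ℕ) = w := fun h'' => h h''.symm
      simp [pathPotential, indFam, h, h']
  | cons b t ih =>
    simp only [pathPotential, ih]
    by_cases h : b :: t = w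
    · subst h
      have h1 : ¬ (b :: t) <:+ t := by
        intro hs
        have := hs.length_le
        simp at this
      simp [indFam, h1]
    · have h2 : w <:+ b :: t ↔ w <:+ t := by
        rw [List.suffix_cons_iff]
        constructor
        · rintro (h3 | h3)
          · exact absurd h3.symm h
          · exact h3
        · exact Or.inr
      simp [indFam, h, h2]

theorem isTest_indFam (w : List ℕ) : IsTest PotentialModel.global (indFam w) := by
  refine ⟨fun s => ?_, ?_⟩
  · rw [pathPotential_indFam]
    split_ifs <;> simp
  · intro A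
    have h1 : ∀ u ∈ A, indFam w u ^ 2 = if u = w then 1 else 0 := by
      intro u _
      by_cases h : u = w <;> simp [indFam, h]
    rw [Finset.sum_congr rfl h1, Finset.sum_ite_eq']
    split_ifs <;> norm_num

/-- The indicator test of a vertex. -/
noncomputable def indTest (w : List ℕ) : PotentialTest PotentialModel.global :=
  ⟨indFam w, isTest_indFam w⟩

/-! ### Coordinate vectors and branch sums -/

theorem coordVector_apply (m : PotentialModel) (s : List ℕ) (f : PotentialTest m) :
    (coordVector m s : PotentialTest m → ℝ) f = f.1 s := rfl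

theorem one_le_norm_coordVector (w : List ℕ) : 1 ≤ ‖coordVector PotentialModel.global w‖ := by
  have h := lp.norm_apply_le_norm ENNReal.top_ne_zero (coordVector PotentialModel.global w)
    (indTest w)
  rw [coordVector_apply] at h
  simpa [indTest, indFam] using h

theorem norm_sum_coordVector_cons_le (v : List ℕ) (s : Finset ℕ) :
    ‖∑ a ∈ s, coordVector PotentialModel.global (a :: v)‖ ≤ Real.sqrt s.card := by
  refine lp.norm_le_of_forall_le (Real.sqrt_nonneg _) (fun f => ?_)
  rw [lp.coeFn_sum, Finset.sum_apply]
  simp only [coordVector_apply]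
  rw [Real.norm_eq_abs]
  apply Real.abs_le_sqrt
  have h1 := sq_sum_le_card_mul_sum_sq (s := s) (f := fun a => f.1 (a :: v))
  have h2 : ∑ a ∈ s, f.1 (a :: v) ^ 2 ≤ 1 := by
    have h3 := f.2.2 (s.image (fun a => a :: v))
    rw [Finset.sum_image (fun x _ y _ hxy => by simpa using hxy)] at h3
    exact h3
  calc (∑ a ∈ s, f.1 (a :: v)) ^ 2 ≤ (s.card : ℝ) * ∑ a ∈ s, f.1 (a :: v) ^ 2 := h1
    _ ≤ (s.card : ℝ) * 1 := mul_le_mul_of_nonneg_left h2 (Nat.cast_nonneg _)
    _ = s.card := mul_one _

/-- Branch sums: the sum of the coordinate vectors along the root path of a vertex. -/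
noncomputable def bsum : List ℕ → lp (fun _ : PotentialTest PotentialModel.global => ℝ) ⊤
  | [] => coordVector PotentialModel.global []
  | a :: v => bsum v + coordVector PotentialModel.global (a :: v)

theorem bsum_apply (v : List ℕ) (f : PotentialTest PotentialModel.global) :
    (bsum v : PotentialTest PotentialModel.global → ℝ) f = pathPotential f.1 v := by
  induction v with
  | nil => rfl
  | cons a v ih =>
    simp only [bsum, pathPotential]
    rw [lp.coeFn_add, Pi.add_apply, ih, coordVector_apply]

theorem norm_bsum_le (v : List ℕ) : ‖bsum v‖ ≤ 1 := by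
  refine lp.norm_le_of_forall_le zero_le_one (fun f => ?_)
  rw [bsum_apply, Real.norm_eq_abs]
  exact f.2.1 v

theorem coordVector_mem_truncSp {k : ℕ} {u : List ℕ} (hu : u.length ≤ k) :
    coordVector PotentialModel.global u ∈ truncSp k :=
  Submodule.le_topologicalClosure _ (Submodule.subset_span ⟨u, hu, rfl⟩)

theorem bsum_mem_truncSp {k : ℕ} : ∀ {v : List ℕ}, v.length ≤ k → bsum v ∈ truncSp k
  | [], h => coordVector_mem_truncSp h
  | a :: v, h => by
    have h1 : v.length ≤ k := by
      simp only [List.length_cons] at h
      omega
    exact (truncSp k).add_mem (bsum_mem_truncSp h1) (coordVector_mem_truncSp h)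

theorem truncSp_separable (k : ℕ) : TopologicalSpace.SeparableSpace (truncSp k) := by
  have hc : (coordVector PotentialModel.global '' {u : List ℕ | u.length ≤ k}).Countable :=
    (Set.to_countable _).image _
  have h1 : TopologicalSpace.IsSeparable
      ((Submodule.span ℝ (coordVector PotentialModel.global '' {u : List ℕ | u.length ≤ k}) :
        Set (lp (fun _ : PotentialTest PotentialModel.global => ℝ) ⊤))) :=
    hc.isSeparable.span
  have h2 := h1.closure
  exact h2.separableSpace

/-! ### The `ℓ₂`-sum -/

/-- The `ℓ₂`-sum of the truncations. -/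
noncomputable abbrev E0t : Type := lp (fun k : ℕ => truncSp k) 2

/-- Coordinate increments inside the `K`-th summand. -/
noncomputable def incr (K : ℕ) (u : List ℕ) (hu : u.length ≤ K) : E0t :=
  lp.single 2 K ⟨coordVector PotentialModel.global u, coordVector_mem_truncSp hu⟩

/-- Tree nodes inside the `K`-th summand. -/
noncomputable def node (K : ℕ) (v : List ℕ) (hv : v.length ≤ K) : E0t :=
  lp.single 2 K ⟨bsum v, bsum_mem_truncSp hv⟩

theorem norm_incr (K : ℕ) (u : List ℕ) (hu : u.length ≤ K) :
    ‖incr K u hu‖ = ‖coordVector PotentialModel.global u‖ := by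
  rw [incr, lp.norm_single (by norm_num)]
  rfl

theorem norm_node (K : ℕ) (v : List ℕ) (hv : v.length ≤ K) : ‖node K v hv‖ = ‖bsum v‖ := by
  rw [node, lp.norm_single (by norm_num)]
  rfl

theorem node_cons (K : ℕ) (a : ℕ) (v : List ℕ) (hv : (a :: v).length ≤ K) (hv' : v.length ≤ K) :
    node K (a :: v) hv = node K v hv' + incr K (a :: v) hv := by
  rw [node, node, incr, ← lp.single_add]
  rfl

theorem norm_sum_incr_le (K : ℕ) (v : List ℕ) (hv : v.length + 1 ≤ K) (s : Finset ℕ) :
    ‖∑ a ∈ s, incr K (a :: v) (by simpa using hv)‖ ≤ 1 * Real.sqrt s.card := by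
  have h1 : ∑ a ∈ s, incr K (a :: v) (by simpa using hv)
      = lp.single 2 K (∑ a ∈ s, (⟨coordVector PotentialModel.global (a :: v),
          coordVector_mem_truncSp (by simpa using hv)⟩ : truncSp K)) := by
    rw [← lp.singleAddMonoidHom_apply, map_sum]
    rfl
  rw [h1, lp.norm_single (by norm_num), one_mul, Submodule.coe_norm, Submodule.coe_sum]
  exact norm_sum_coordVector_cons_le v s

theorem treeNode_node (K : ℕ) : ∀ (j : ℕ) (v : List ℕ) (hv : v.length ≤ K), v.length + j = K →
    TreeNode (X := E0t) 1 1 j (node K v hv)
  | 0, v, hv, _ => by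
    show ‖node K v hv‖ ≤ 1
    rw [norm_node]
    exact norm_bsum_le v
  | j + 1, v, hv, hj => by
    refine ⟨by rw [norm_node]; exact norm_bsum_le v, fun F hF ε hε => ?_⟩
    have hv1 : v.length + 1 ≤ K := by omega
    obtain ⟨a, w, hwF, hclose⟩ := hF.exists_close_of_sqrt_bound
      (fun a => incr K (a :: v) (by simpa using hv1)) (C := 1)
      (fun s => norm_sum_incr_le K v hv1 s) hε
    have hav : (a :: v).length ≤ K := by simpa using hv1
    have hdiff : node K (a :: v) hav - node K v hv = incr K (a :: v) hav := by
      rw [node_cons K a v hav hv]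
      abel
    refine ⟨node K (a :: v) hav, w, treeNode_node K j (a :: v) hav (by simp; omega), hwF, ?_, ?_⟩
    · rw [hdiff]
      exact hclose
    · rw [hdiff, norm_incr]
      exact one_le_norm_coordVector _

/-- `E0t` contains asymptotic trees of every height with root of norm at least `1`. -/
theorem E0t_trees' : ∀ k : ℕ, ∃ x : E0t, 1 ≤ ‖x‖ ∧ TreeNode 1 1 k x := by
  intro k
  refine ⟨node k [] (by simp), ?_, treeNode_node k k [] (by simp) (by simp)⟩
  rw [norm_node]
  exact one_le_norm_coordVector []

/-- `E0t` is infinite-dimensional. -/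
theorem E0t_not_finiteDimensional' : ¬ FiniteDimensional ℝ E0t := by
  intro hfin
  have hF : IsCofG ({0} : Set E0t) := isCofG_zero_of_finiteDimensional
  obtain ⟨a, w, hw, hclose⟩ := hF.exists_close_of_sqrt_bound
    (fun a => incr 1 (a :: []) (by simp)) (C := 1)
    (fun s => norm_sum_incr_le 1 [] (by simp) s) (ε := 1) one_pos
  rw [Set.mem_singleton_iff] at hw
  rw [hw, sub_zero, norm_incr] at hclose
  exact absurd (one_le_norm_coordVector _) (not_le.mpr hclose)

/-- `E0t` is separable. -/
theorem E0t_separable' : TopologicalSpace.SeparableSpace E0t := by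
  have hsep : ∀ k : ℕ, TopologicalSpace.SeparableSpace (truncSp k) := truncSp_separable
  let S : Set E0t := ⋃ k : ℕ, Set.range (fun y : truncSp k => (lp.single 2 k y : E0t))
  have hS : TopologicalSpace.IsSeparable S := by
    refine TopologicalSpace.IsSeparable.iUnion (fun k => ?_)
    exact TopologicalSpace.isSeparable_range
      (lp.isometry_single (E := fun k : ℕ => ↥(truncSp k)) (p := 2) k).continuous
  have hspan : TopologicalSpace.IsSeparable (closure (Submodule.span ℝ S : Set E0t)) :=
    hS.span.closure
  have huniv : closure (Submodule.span ℝ S : Set E0t) = Set.univ := by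
    rw [Set.eq_univ_iff_forall]
    intro x
    have hx := lp.hasSum_single (p := 2) (by norm_num) x
    refine mem_closure_of_tendsto hx (Filter.Eventually.of_forall fun s => ?_)
    refine Submodule.sum_mem _ (fun i _ => Submodule.subset_span ?_)
    exact Set.mem_iUnion.mpr ⟨i, Set.mem_range_self _⟩
  rw [huniv] at hspan
  exact (TopologicalSpace.isSeparable_univ_iff).mp hspan

/-! ### Interface statements (in terms of `Helper32.truncSpace`) -/

theorem E0_separable : TopologicalSpace.SeparableSpace (lp (fun k : ℕ => truncSpace k) 2) :=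
  E0t_separable'

theorem E0_trees : ∀ k : ℕ, ∃ x : lp (fun k : ℕ => truncSpace k) 2, 1 ≤ ‖x‖ ∧ TreeNode 1 1 k x :=
  E0t_trees'

theorem E0_not_finiteDimensional : ¬ FiniteDimensional ℝ (lp (fun k : ℕ => truncSpace k) 2) :=
  E0t_not_finiteDimensional'

end Crest.Agent.S0166.Helper73
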