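import Mathlib
import Crest.Prelude.Def_TreePotentials

/-!
Package P166C of row 125 (S0166): the depth-`k` truncation of the global tree-potential model,
i.e. the closed span of the coordinate vectors of the vertices of length `≤ k`, is linearly
homeomorphic to the Hilbert space `ℓ²` on these vertices; hence it is reflexive.
-/

set_option autoImplicit false

namespace Crest.Agent.S0166.Helper80

open Crest.AnalysisR Crest.AnalysisR.TreePotential
open scoped ENNReal NNReal

/-! ### Two general facts about reflexivity -/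

/-- A Hilbert space is reflexive. -/
theorem reflexive_of_inner' {H : Type*} [NormedAddCommGroup H] [InnerProductSpace ℝ H]
    [CompleteSpace H] : Function.Surjective (NormedSpace.inclusionInDoubleDual ℝ H) := by
  intro Λ
  let T : H →L[ℝ] ℝ := LinearMap.mkContinuous
    { toFun := fun x => Λ (innerSL ℝ x)
      map_add' := fun x y => by rw [map_add, map_add]
      map_smul' := fun c x => by
        rw [map_smulₛₗ, map_smul]; simp }
    ‖Λ‖ (fun x => by
      have h1 : ‖Λ (innerSL ℝ x)‖ ≤ ‖Λ‖ * ‖innerSL ℝ x‖ := Λ.le_opNorm _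
      have h2 : ‖innerSL ℝ x‖ = ‖x‖ := innerSL_apply_norm ℝ x
      rw [h2] at h1
      exact h1)
  have hT : ∀ x, T x = Λ (innerSL ℝ x) := fun x => rfl
  refine ⟨(InnerProductSpace.toDual ℝ H).symm T, ?_⟩
  ext φ
  rw [NormedSpace.dual_def]
  have hφ : φ = innerSL ℝ ((InnerProductSpace.toDual ℝ H).symm φ) := by
    ext z
    rw [innerSL_apply_apply, InnerProductSpace.toDual_symm_apply]
  have h3 : Λ φ = T ((InnerProductSpace.toDual ℝ H).symm φ) := by
    rw [hT, ← hφ]
  rw [h3, ← InnerProductSpace.toDual_symm_apply (𝕜 := ℝ) (y := T), real_inner_comm,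
    InnerProductSpace.toDual_symm_apply]

/-- Reflexivity is transported along a linear homeomorphism. -/
theorem reflexive_of_equiv' {V W : Type*} [NormedAddCommGroup V] [NormedSpace ℝ V]
    [NormedAddCommGroup W] [NormedSpace ℝ W] (e : V ≃L[ℝ] W)
    (h : Function.Surjective (NormedSpace.inclusionInDoubleDual ℝ W)) :
    Function.Surjective (NormedSpace.inclusionInDoubleDual ℝ V) := by
  intro Λ
  let P : StrongDual ℝ W →L[ℝ] StrongDual ℝ V :=
    (ContinuousLinearMap.compL ℝ V W ℝ).flip (e : V →L[ℝ] W)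
  have hP : ∀ ψ : StrongDual ℝ W, P ψ = ψ.comp (e : V →L[ℝ] W) := fun ψ => rfl
  obtain ⟨w, hw⟩ := h (Λ.comp P)
  refine ⟨e.symm w, ?_⟩
  ext φ
  have h1 := congrArg (fun L : StrongDual ℝ (StrongDual ℝ W) =>
    L (φ.comp (e.symm : W →L[ℝ] V))) hw
  simp only [NormedSpace.dual_def, ContinuousLinearMap.comp_apply, hP] at h1
  rw [NormedSpace.dual_def]
  have h2 : (φ.comp (e.symm : W →L[ℝ] V)).comp (e : V →L[ℝ] W) = φ := by
    ext v
    simp
  rw [h2] at h1
  simpa using h1

/-! ### The Hilbert space on the vertices of depth at most `k` -/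

/-- Vertices of length at most `k`. -/
abbrev Vk (k : ℕ) : Type := {u : List ℕ // u.length ≤ k}

/-- The Hilbert space `ℓ²` on the vertices of length at most `k`. -/
abbrev Hk (k : ℕ) : Type := lp (fun _ : Vk k => ℝ) 2

/-- The ambient `ℓ^∞` space on the global test set. -/
abbrev Amb : Type := lp (fun _ : PotentialTest PotentialModel.global => ℝ) ⊤

theorem test_sq_sum_le (f : PotentialTest PotentialModel.global) (A : Finset (List ℕ)) :
    ∑ u ∈ A, f.1 u ^ 2 ≤ 1 :=
  f.2.2 A

theorem test_sum_le (k : ℕ) (f : PotentialTest PotentialModel.global) (s : Finset (Vk k)) :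
    ∑ v ∈ s, ‖f.1 v.1‖ ^ (2 : ℝ≥0∞).toReal ≤ 1 := by
  have h := test_sq_sum_le f (s.map ⟨Subtype.val, Subtype.val_injective⟩)
  rw [Finset.sum_map] at h
  have h2 : ∀ v : Vk k, ‖f.1 v.1‖ ^ (2 : ℝ≥0∞).toReal = f.1 v.1 ^ 2 := by
    intro v
    have : (2 : ℝ≥0∞).toReal = 2 := by simp
    rw [this, Real.rpow_two, Real.norm_eq_abs, sq_abs]
  simpa [h2] using h

/-- The restriction of a global test to the vertices of length at most `k`, in `ℓ²`. -/
noncomputable def rest (k : ℕ) (f : PotentialTest PotentialModel.global) : Hk k :=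
  ⟨fun v => f.1 v.1, memℓp_gen' (C := 1) (test_sum_le k f)⟩

theorem rest_apply (k : ℕ) (f : PotentialTest PotentialModel.global) (v : Vk k) :
    rest k f v = f.1 v.1 := rfl

theorem norm_rest_le (k : ℕ) (f : PotentialTest PotentialModel.global) : ‖rest k f‖ ≤ 1 := by
  apply lp.norm_le_of_forall_sum_le (by norm_num) zero_le_one
  intro s
  have h := test_sum_le k f s
  simpa [rest] using h

/-- The map `x ↦ (f ↦ ⟪f|_{V_k}, x⟫)` as a function into the ambient space. -/
noncomputable def Jfun (k : ℕ) (x : Hk k) : Amb :=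
  ⟨fun f => inner ℝ (rest k f) x, memℓp_infty ⟨‖x‖, by
    rintro _ ⟨f, rfl⟩
    calc ‖inner ℝ (rest k f) x‖ ≤ ‖rest k f‖ * ‖x‖ := norm_inner_le_norm _ _
      _ ≤ 1 * ‖x‖ := mul_le_mul_of_nonneg_right (norm_rest_le k f) (norm_nonneg x)
      _ = ‖x‖ := one_mul _⟩⟩

theorem Jfun_apply (k : ℕ) (x : Hk k) (f : PotentialTest PotentialModel.global) :
    Jfun k x f = inner ℝ (rest k f) x := rfl

theorem norm_Jfun_le (k : ℕ) (x : Hk k) : ‖Jfun k x‖ ≤ ‖x‖ := by
  apply lp.norm_le_of_forall_le (norm_nonneg x)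
  intro f
  rw [Jfun_apply]
  calc ‖inner ℝ (rest k f) x‖ ≤ ‖rest k f‖ * ‖x‖ := norm_inner_le_norm _ _
    _ ≤ 1 * ‖x‖ := mul_le_mul_of_nonneg_right (norm_rest_le k f) (norm_nonneg x)
    _ = ‖x‖ := one_mul _

/-- The linear map underlying `J`. -/
noncomputable def Jlin (k : ℕ) : Hk k →ₗ[ℝ] Amb where
  toFun := Jfun k
  map_add' x y := by
    ext f
    rw [lp.coeFn_add, Pi.add_apply, Jfun_apply, Jfun_apply, Jfun_apply, inner_add_right]
  map_smul' c x := by
    ext f
    rw [lp.coeFn_smul, Pi.smul_apply, Jfun_apply, Jfun_apply, inner_smul_right]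
    simp

/-- The continuous linear map `ℓ²(V_k) → ℓ^∞(tests)`, `x ↦ (f ↦ ∑_u f u * x u)`. -/
noncomputable def J (k : ℕ) : Hk k →L[ℝ] Amb :=
  (Jlin k).mkContinuous 1 (fun x => by
    rw [one_mul]
    exact norm_Jfun_le k x)

theorem J_apply (k : ℕ) (x : Hk k) (f : PotentialTest PotentialModel.global) :
    J k x f = inner ℝ (rest k f) x := rfl

theorem J_single (k : ℕ) (v : Vk k) (c : ℝ) :
    J k (lp.single 2 v c) = c • coordVector PotentialModel.global v.1 := by
  classical
  ext f
  rw [J_apply, lp.inner_single_right, lp.coeFn_smul, Pi.smul_apply, rest_apply]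
  simp [coordVector]

/-! ### The lower bound -/

theorem abs_pathPotential_le (k : ℕ) (g : List ℕ → ℝ) (M : ℝ)
    (hg : ∀ u, |g u| ≤ M) (hg0 : ∀ u : List ℕ, k < u.length → g u = 0) :
    ∀ s : List ℕ, |pathPotential g s| ≤ (((min s.length k : ℕ) : ℝ) + 1) * M := by
  intro s
  induction s with
  | nil => simpa [pathPotential] using hg []
  | cons a v ih =>
    have hM : 0 ≤ M := le_trans (abs_nonneg _) (hg [])
    simp only [pathPotential]
    by_cases h : (a :: v).length ≤ k
    · have hv : v.length + 1 ≤ k := by simpa using h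
      have h1 : min v.length k = v.length := by omega
      have h2 : min (a :: v).length k = v.length + 1 := by
        simp only [List.length_cons]; omega
      rw [h1] at ih
      rw [h2]
      calc |pathPotential g v + g (a :: v)| ≤ |pathPotential g v| + |g (a :: v)| :=
            abs_add_le _ _
        _ ≤ ((v.length : ℝ) + 1) * M + M := add_le_add ih (hg _)
        _ = (((v.length + 1 : ℕ) : ℝ) + 1) * M := by push_cast; ring
    · have h0 : g (a :: v) = 0 := hg0 _ (by omega)
      rw [h0, add_zero]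
      have h3 : min v.length k ≤ min (a :: v).length k := by
        simp only [List.length_cons]; omega
      have h4 : ((min v.length k : ℕ) : ℝ) ≤ ((min (a :: v).length k : ℕ) : ℝ) := by
        exact_mod_cast h3
      calc |pathPotential g v| ≤ (((min v.length k : ℕ) : ℝ) + 1) * M := ih
        _ ≤ (((min (a :: v).length k : ℕ) : ℝ) + 1) * M := by
            apply mul_le_mul_of_nonneg_right _ hM
            linarith

theorem abs_pathPotential_le' (k : ℕ) (g : List ℕ → ℝ) (M : ℝ)
    (hg : ∀ u, |g u| ≤ M) (hg0 : ∀ u : List ℕ, k < u.length → g u = 0) (s : List ℕ) :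
    |pathPotential g s| ≤ ((k : ℝ) + 1) * M := by
  have hM : 0 ≤ M := le_trans (abs_nonneg _) (hg [])
  refine le_trans (abs_pathPotential_le k g M hg hg0 s) ?_
  apply mul_le_mul_of_nonneg_right _ hM
  have : ((min s.length k : ℕ) : ℝ) ≤ (k : ℝ) := by
    exact_mod_cast min_le_right _ _
  linarith

/-- Extension by zero of an element of `ℓ²(V_k)` to all vertices. -/
noncomputable def ext0 (k : ℕ) (x : Hk k) : List ℕ → ℝ :=
  fun u => if h : u.length ≤ k then x ⟨u, h⟩ else 0

theorem ext0_apply (k : ℕ) (x : Hk k) (v : Vk k) : ext0 k x v.1 = x v := by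
  unfold ext0
  rw [dif_pos v.2]

theorem ext0_of_lt (k : ℕ) (x : Hk k) (u : List ℕ) (h : k < u.length) : ext0 k x u = 0 := by
  unfold ext0
  rw [dif_neg (by omega)]

theorem abs_apply_le_norm (k : ℕ) (x : Hk k) (v : Vk k) : |x v| ≤ ‖x‖ := by
  have := lp.norm_apply_le_norm (p := 2) (by norm_num) x v
  simpa [Real.norm_eq_abs] using this

theorem abs_ext0_le (k : ℕ) (x : Hk k) (u : List ℕ) : |ext0 k x u| ≤ ‖x‖ := by
  unfold ext0
  split_ifs with h
  · exact abs_apply_le_norm k x ⟨u, h⟩
  · simp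

theorem sum_sq_le_norm_sq (k : ℕ) (x : Hk k) (s : Finset (Vk k)) :
    ∑ v ∈ s, x v ^ 2 ≤ ‖x‖ ^ 2 := by
  have h := lp.sum_rpow_le_norm_rpow (p := 2) (by norm_num) x s
  have h2 : (2 : ℝ≥0∞).toReal = 2 := by simp
  rw [h2, Real.rpow_two] at h
  refine le_trans (le_of_eq ?_) h
  apply Finset.sum_congr rfl
  intro v _
  rw [Real.rpow_two, Real.norm_eq_abs, sq_abs]

theorem sum_sq_ext0_le (k : ℕ) (x : Hk k) (A : Finset (List ℕ)) :
    ∑ u ∈ A, ext0 k x u ^ 2 ≤ ‖x‖ ^ 2 := by
  classical
  have h1 : ∑ u ∈ A, ext0 k x u ^ 2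
      = ∑ u ∈ A.filter (fun u => u.length ≤ k), ext0 k x u ^ 2 := by
    rw [Finset.sum_filter]
    apply Finset.sum_congr rfl
    intro u _
    split_ifs with h
    · rfl
    · rw [ext0_of_lt k x u (by omega)]; simp
  have h2 : ∑ u ∈ A.filter (fun u => u.length ≤ k), ext0 k x u ^ 2
      = ∑ v ∈ A.subtype (fun u => u.length ≤ k), x v ^ 2 := by
    rw [← Finset.sum_subtype_eq_sum_filter]
    apply Finset.sum_congr rfl
    intro v _
    rw [ext0_apply]
  rw [h1, h2]
  exact sum_sq_le_norm_sq k x _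

/-- The normalised test attached to a nonzero `x`. -/
theorem exists_test (k : ℕ) (x : Hk k) (hx : x ≠ 0) :
    ∃ f : PotentialTest PotentialModel.global,
      ∀ u, f.1 u = (1 / (((k : ℝ) + 1) * ‖x‖)) * ext0 k x u := by
  have hx0 : 0 < ‖x‖ := norm_pos_iff.mpr hx
  have hk : (0 : ℝ) < (k : ℝ) + 1 := by positivity
  set c : ℝ := 1 / (((k : ℝ) + 1) * ‖x‖) with hc
  have hc0 : 0 < c := by positivity
  refine ⟨⟨fun u => c * ext0 k x u, ?_, ?_⟩, fun u => rfl⟩
  · intro s
    have hb := abs_pathPotential_le' k (fun u => c * ext0 k x u) (c * ‖x‖)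
      (fun u => by
        rw [abs_mul, abs_of_pos hc0]
        exact mul_le_mul_of_nonneg_left (abs_ext0_le k x u) hc0.le)
      (fun u hu => by rw [ext0_of_lt k x u hu, mul_zero]) s
    have : ((k : ℝ) + 1) * (c * ‖x‖) = 1 := by
      rw [hc]; field_simp
    rw [this] at hb
    exact hb
  · intro A
    show ∑ u ∈ A, (c * ext0 k x u) ^ 2 ≤ 1
    have h1 : ∑ u ∈ A, (c * ext0 k x u) ^ 2 = c ^ 2 * ∑ u ∈ A, ext0 k x u ^ 2 := by
      rw [Finset.mul_sum]
      apply Finset.sum_congr rfl
      intro u _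
      ring
    rw [h1]
    have h2 := sum_sq_ext0_le k x A
    have h3 : c ^ 2 * ∑ u ∈ A, ext0 k x u ^ 2 ≤ c ^ 2 * ‖x‖ ^ 2 :=
      mul_le_mul_of_nonneg_left h2 (sq_nonneg c)
    refine le_trans h3 ?_
    have h4 : c ^ 2 * ‖x‖ ^ 2 = (1 / ((k : ℝ) + 1)) ^ 2 := by
      rw [hc]; field_simp
    rw [h4]
    have h5 : 1 / ((k : ℝ) + 1) ≤ 1 := by
      rw [div_le_one hk]; linarith [(Nat.cast_nonneg k : (0 : ℝ) ≤ k)]
    have h6 : 0 ≤ 1 / ((k : ℝ) + 1) := by positivity
    calc (1 / ((k : ℝ) + 1)) ^ 2 ≤ 1 ^ 2 := pow_le_pow_left₀ h6 h5 2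
      _ = 1 := one_pow 2

theorem norm_le_mul_norm_J (k : ℕ) (x : Hk k) : ‖x‖ ≤ ((k : ℝ) + 1) * ‖J k x‖ := by
  by_cases hx : x = 0
  · subst hx; simp
  have hx0 : 0 < ‖x‖ := norm_pos_iff.mpr hx
  have hk : (0 : ℝ) < (k : ℝ) + 1 := by positivity
  obtain ⟨f, hf⟩ := exists_test k x hx
  set c : ℝ := 1 / (((k : ℝ) + 1) * ‖x‖) with hc
  have hrest : rest k f = c • x := by
    ext v
    rw [rest_apply, hf, ext0_apply, lp.coeFn_smul, Pi.smul_apply, smul_eq_mul]
  have hval : J k x f = c * ‖x‖ ^ 2 := by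
    rw [J_apply, hrest, real_inner_smul_left, real_inner_self_eq_norm_sq]
  have hle : ‖J k x f‖ ≤ ‖J k x‖ := lp.norm_apply_le_norm (by simp) (J k x) f
  rw [hval, Real.norm_eq_abs, abs_of_nonneg (by positivity)] at hle
  have h1 : c * ‖x‖ ^ 2 = ‖x‖ / ((k : ℝ) + 1) := by
    rw [hc]; field_simp
  rw [h1, div_le_iff₀ hk] at hle
  linarith

theorem J_antilipschitz (k : ℕ) :
    AntilipschitzWith (⟨(k : ℝ) + 1, by positivity⟩ : ℝ≥0) (J k) :=
  ContinuousLinearMap.antilipschitz_of_bound (J k) (fun x => norm_le_mul_norm_J k x)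

theorem J_injective (k : ℕ) : Function.Injective (J k) :=
  (J_antilipschitz k).injective

theorem J_isClosed_range (k : ℕ) : IsClosed (Set.range (J k)) :=
  (J_antilipschitz k).isClosed_range (J k).uniformContinuous

/-! ### The range of `J` is the truncated space -/

/-- The depth-`k` truncated global space (definitionally the `truncSpace k` of `Helper32Defs`). -/
noncomputable def trunc (k : ℕ) : Submodule ℝ Amb :=
  (Submodule.span ℝ
    (coordVector PotentialModel.global '' {u : List ℕ | u.length ≤ k})).topologicalClosure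

theorem range_J (k : ℕ) : (J k).range = trunc k := by
  apply le_antisymm
  · rintro _ ⟨x, rfl⟩
    have hs : HasSum (fun v : Vk k => J k (lp.single 2 v (x v))) (J k x) :=
      (lp.hasSum_single (by norm_num) x).mapL (J k)
    have hmem : ∀ s : Finset (Vk k), ∑ v ∈ s, J k (lp.single 2 v (x v)) ∈
        Submodule.span ℝ (coordVector PotentialModel.global '' {u : List ℕ | u.length ≤ k}) := by
      intro s
      apply Submodule.sum_mem
      intro v _
      rw [J_single]
      exact Submodule.smul_mem _ _ (Submodule.subset_span ⟨v.1, v.2, rfl⟩)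
    have hcl : J k x ∈ closure ((Submodule.span ℝ
        (coordVector PotentialModel.global '' {u : List ℕ | u.length ≤ k}) : Submodule ℝ Amb) :
          Set Amb) :=
      mem_closure_of_tendsto hs (Filter.Eventually.of_forall hmem)
    exact hcl
  · apply Submodule.topologicalClosure_minimal
    · rw [Submodule.span_le]
      rintro _ ⟨u, hu, rfl⟩
      refine ⟨lp.single 2 (⟨u, hu⟩ : Vk k) 1, ?_⟩
      exact (J_single k ⟨u, hu⟩ 1).trans (one_smul _ _)
    · exact J_isClosed_range k

/-- The explicit linear homeomorphism between `ℓ²(V_k)` and the truncated space. -/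
noncomputable def truncIso (k : ℕ) : Hk k ≃L[ℝ] trunc k :=
  ((J k).equivRange (J_injective k) (J_isClosed_range k)).trans
    (ContinuousLinearEquiv.ofEq _ _ (range_J k))

theorem truncIso_apply (k : ℕ) (x : Hk k) : ((truncIso k x : trunc k) : Amb) = J k x := rfl

/-- **P166C**, definition-free form: the closed span of the coordinate vectors of the vertices
of length at most `k` in the global model is reflexive. -/
theorem trunc_reflexive (k : ℕ) :
    Function.Surjective (NormedSpace.inclusionInDoubleDual ℝ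
      ((Submodule.span ℝ (coordVector PotentialModel.global ''
        {u : List ℕ | u.length ≤ k})).topologicalClosure)) :=
  reflexive_of_equiv' (truncIso k).symm reflexive_of_inner'

end Crest.Agent.S0166.Helper80
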