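import Mathlib
import Crest.Prelude.Def_TreePotentials
import Crest.Agent.Lib.S0166.Helper32Defs
import Crest.Agent.Lib.S0166.Helper80Hilbert

/-!
Package P166C of row 125 (S0166), interface form: `truncSpace k` of `Helper32Defs` is reflexive,
and is linearly homeomorphic to `ℓ²` on the vertices of length at most `k`.
-/

set_option autoImplicit false

namespace Crest.Agent.S0166.Helper80

open Crest.AnalysisR Crest.AnalysisR.TreePotential
open Crest.Agent.S0166.Helper32

/-- **P166C**: the depth-`k` truncated global model is reflexive. -/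
theorem truncSpace_reflexive (k : ℕ) :
    Function.Surjective (NormedSpace.inclusionInDoubleDual ℝ (truncSpace k)) :=
  trunc_reflexive k

/-- The explicit linear homeomorphism `ℓ²(V_k) ≃ truncSpace k`, `V_k` the vertices of length
at most `k`; it sends `lp.single 2 v c` to `c • coordVector .global v`. -/
noncomputable def truncSpaceIso (k : ℕ) : Hk k ≃L[ℝ] truncSpace k :=
  truncIso k

theorem truncSpaceIso_apply (k : ℕ) (x : Hk k)
    (f : PotentialTest PotentialModel.global) :
    ((truncSpaceIso k x : truncSpace k) :
      lp (fun _ : PotentialTest PotentialModel.global => ℝ) ⊤) f = inner ℝ (rest k f) x := rfl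

theorem truncSpaceIso_single (k : ℕ) (v : Vk k) (c : ℝ) :
    ((truncSpaceIso k (lp.single 2 v c) : truncSpace k) :
      lp (fun _ : PotentialTest PotentialModel.global => ℝ) ⊤)
      = c • coordVector PotentialModel.global v.1 :=
  J_single k v c

theorem norm_truncSpaceIso_le (k : ℕ) (x : Hk k) : ‖truncSpaceIso k x‖ ≤ ‖x‖ :=
  norm_Jfun_le k x

theorem norm_le_truncSpaceIso (k : ℕ) (x : Hk k) :
    ‖x‖ ≤ ((k : ℝ) + 1) * ‖truncSpaceIso k x‖ :=
  norm_le_mul_norm_J k x

end Crest.Agent.S0166.Helper80
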